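import Vale.Agent.P079.Contr

namespace Vale.Agent.P079

open Filter Topology Finset Function

variable {X : Type*} [NormedAddCommGroup X] [NormedSpace ℝ X]

noncomputable def hM (M : ℕ) : ℝ := 1 / ((M + 1) * (M + 2))

theorem hM_nonneg (M : ℕ) : 0 ≤ hM M := by
  unfold hM
  positivity

theorem hM_mul (M : ℕ) : (((M + 1) ^ 2 : ℕ) : ℝ) * hM M = 1 - 1 / (M + 2) := by
  unfold hM
  push_cast
  field_simp
  ring

noncomputable def avM (n : ℕ) (F : (ℕ → ℝ) → X) (M : ℕ) : X := avg ((M + 1) ^ 2) (hM M) n F 0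

noncomputable def AV (n : ℕ) (F : (ℕ → ℝ) → X) : X := wl (avM n F)

def InCube (σ : ℕ → ℝ) : Prop := ∀ i, 0 ≤ σ i ∧ σ i ≤ 1

def Bd (F : (ℕ → ℝ) → X) : Prop := ∃ C, ∀ σ, InCube σ → ‖F σ‖ ≤ C

theorem InCube.update {σ : ℕ → ℝ} (h : InCube σ) (i : ℕ) {c : ℝ} (h0 : 0 ≤ c) (h1 : c ≤ 1) :
    InCube (update σ i c) := by
  intro j
  rcases eq_or_ne j i with rfl | hj
  · simpa using ⟨h0, h1⟩
  · simpa [hj] using h j

theorem inCube_of {M : ℕ} {γ : ℕ → ℝ}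
    (h : ∀ i, 0 ≤ γ i ∧ γ i ≤ (((M + 1) ^ 2 : ℕ) : ℝ) * hM M) : InCube γ := fun i =>
  ⟨(h i).1, (h i).2.trans (by rw [hM_mul]; exact sub_le_self _ (by positivity))⟩

theorem avM_mem {C : Set X} (hC : Convex ℝ C) (n : ℕ) {F : (ℕ → ℝ) → X}
    (hF : ∀ σ, InCube σ → F σ ∈ C) (M : ℕ) : avM n F M ∈ C :=
  avg_mem (by positivity) (hM_nonneg M) hC n F 0 fun γ h _ => by
    simpa using hF γ (inCube_of h)

theorem AV_spec (hX : Refl X) (n : ℕ) {F : (ℕ → ℝ) → X} (hF : Bd F) :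
    WL (hyperfilter ℕ : Filter ℕ) (avM n F) (AV n F) := by
  obtain ⟨C, hC⟩ := hF
  refine wl_spec hX (C := C) fun M => ?_
  simpa using avM_mem (convex_closedBall (0 : X) C) n (fun σ h => by simpa using hC σ h) M

theorem AV_mem (hX : Refl X) {C : Set X} (hC : Convex ℝ C) (hcl : IsClosed C) (n : ℕ)
    {F : (ℕ → ℝ) → X} (hb : Bd F) (hF : ∀ σ, InCube σ → F σ ∈ C) : AV n F ∈ C :=
  (AV_spec hX n hb).mem hC hcl (Eventually.of_forall (avM_mem hC n hF))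

theorem AV_dist (hX : Refl X) (n : ℕ) {F : (ℕ → ℝ) → X} {a : X} {ρ : ℝ}
    (hF : ∀ σ, InCube σ → ‖F σ - a‖ ≤ ρ) : ‖AV n F - a‖ ≤ ρ := by
  have := AV_mem hX (convex_closedBall a ρ) Metric.isClosed_closedBall n (F := F)
    ⟨ρ + ‖a‖, fun σ h => by linarith [norm_sub_norm_le (F σ) a, hF σ h]⟩
    fun σ h => by simpa [dist_eq_norm] using hF σ h
  simpa [dist_eq_norm] using this

theorem AV_pair (hX : Refl X) {n n' : ℕ} (hn : n ≤ n') {F G : (ℕ → ℝ) → X} (hF : Bd F) (hG : Bd G)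
    (hG' : ∀ i, n ≤ i → ∀ σ a, G (Pi.single i a + σ) = G σ) {ρ : ℝ}
    (h : ∀ σ, InCube σ → ‖F σ - G σ‖ ≤ ρ) : ‖AV n' F - AV n G‖ ≤ ρ := by
  refine ((AV_spec hX n' hF).sub (AV_spec hX n hG)).norm_le fun ε hε =>
    Eventually.of_forall fun M => ?_
  have e : avM n G M = avM n' G M := (avg_extend (by positivity) hn G hG' 0).symm
  rw [e]
  refine (avg_pair (by positivity) (hM_nonneg M) n' F G 0 0 fun γ hγ => ?_).trans
    (le_add_of_nonneg_right hε.le)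
  simpa using h γ (inCube_of hγ)

theorem AV_sum (hX : Refl X) (n : ℕ) {κ : Type*} (s : Finset κ) (l : κ → ℝ)
    (F : κ → (ℕ → ℝ) → X) (hF : ∀ r ∈ s, Bd (F r)) (hb : Bd fun σ => ∑ r ∈ s, l r • F r σ) :
    AV n (fun σ => ∑ r ∈ s, l r • F r σ) = ∑ r ∈ s, l r • AV n (F r) := by
  refine (AV_spec hX n hb).unique ?_
  have e : avM n (fun σ => ∑ r ∈ s, l r • F r σ) = fun M => ∑ r ∈ s, l r • avM n (F r) M := by
    funext M
    have e1 : (fun σ => ∑ r ∈ s, l r • F r σ) = ∑ r ∈ s, l r • F r := by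
      funext σ
      simp [Finset.sum_apply]
    simp [avM, e1, Finset.sum_apply]
  rw [e]
  exact WL.sum s fun r hr => (AV_spec hX n (hF r hr)).smul _

theorem Bd.update {F : (ℕ → ℝ) → X} (hF : Bd F) (i : ℕ) {c : ℝ} (h0 : 0 ≤ c) (h1 : c ≤ 1) :
    Bd fun γ => F (update γ i c) := by
  obtain ⟨C, hC⟩ := hF
  exact ⟨C, fun σ h => hC _ (h.update i h0 h1)⟩

theorem AV_contr_int (hX : Refl X) {n : ℕ} {d : ℕ → X} {F : (ℕ → ℝ) → X} (hF : CubeLip n d F)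
    (hd : ∀ i < n, ‖d i‖ ≤ 1) (hb : Bd F) (c : ℕ → ℤ) :
    ‖∑ i ∈ range n, (c i : ℝ) •
      (AV n (fun γ => F (update γ i 1)) - AV n fun γ => F (update γ i 0))‖
      ≤ ‖∑ i ∈ range n, (c i : ℝ) • d i‖ := by
  refine (WL.sum (range n) fun i _ => ((AV_spec hX n (hb.update i zero_le_one le_rfl)).sub
    (AV_spec hX n (hb.update i le_rfl zero_le_one))).smul (c i : ℝ)).norm_le fun ε hε => ?_
  obtain ⟨k, hk⟩ : ∃ k, ∑ i ∈ range n, (c i).natAbs = k := ⟨_, rfl⟩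
  obtain ⟨M₀, hM₀⟩ := exists_nat_ge (6 * k / ε)
  filter_upwards [hyper_le (eventually_ge_atTop k), hyper_le (eventually_ge_atTop M₀)]
    with M h1 h2
  have h1' : (k : ℝ) ≤ M := by exact_mod_cast h1
  have h2' : (M₀ : ℝ) ≤ M := by exact_mod_cast h2
  have hM2 : (0 : ℝ) < M + 2 := by positivity
  have h3 : k * hM M ≤ 1 / (M + 2) := by
    unfold hM
    rw [mul_one_div, div_le_div_iff₀ (by positivity) hM2]
    nlinarith
  refine (contr_fin (by positivity) (hM_nonneg M) hF hd c hk (by rw [hM_mul]; linarith)).trans ?_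
  rw [hM_mul]
  have h4 : 6 * k * (1 / (M + 2 : ℝ)) ≤ ε := by
    rw [mul_one_div, div_le_iff₀ hM2]
    rw [div_le_iff₀ hε] at hM₀
    nlinarith
  have h5 : (0 : ℝ) ≤ k := Nat.cast_nonneg k
  nlinarith

theorem real_of_int {n : ℕ} {d D : ℕ → X}
    (h : ∀ c : ℕ → ℤ, ‖∑ i ∈ range n, (c i : ℝ) • D i‖ ≤ ‖∑ i ∈ range n, (c i : ℝ) • d i‖)
    (c : ℕ → ℝ) : ‖∑ i ∈ range n, c i • D i‖ ≤ ‖∑ i ∈ range n, c i • d i‖ := by
  have k : ∀ (L : ℝ) (v : ℕ → X), ‖L • ∑ i ∈ range n, c i • v i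
      - ∑ i ∈ range n, (⌊L * c i⌋ : ℝ) • v i‖ ≤ ∑ i ∈ range n, ‖v i‖ := by
    intro L v
    rw [smul_sum, ← sum_sub_distrib]
    refine (norm_sum_le _ _).trans (sum_le_sum fun i _ => ?_)
    rw [smul_smul, ← sub_smul, norm_smul, Real.norm_eq_abs]
    refine mul_le_of_le_one_left (norm_nonneg _) ?_
    rw [abs_le]
    constructor <;> linarith [Int.floor_le (L * c i), Int.lt_floor_add_one (L * c i)]
  refine le_of_forall_pos_le_add fun ε hε => ?_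
  set C := ∑ i ∈ range n, ‖D i‖ + ∑ i ∈ range n, ‖d i‖ with hC
  have hC0 : 0 ≤ C := by positivity
  have hL : 0 < C / ε + 1 := by positivity
  have h1 := k (C / ε + 1) D
  have h2 := k (C / ε + 1) d
  have h3 := h fun i => ⌊(C / ε + 1) * c i⌋
  have h4 := norm_sub_norm_le ((C / ε + 1) • ∑ i ∈ range n, c i • D i)
    (∑ i ∈ range n, (⌊(C / ε + 1) * c i⌋ : ℝ) • D i)
  have h5 := norm_sub_norm_le (∑ i ∈ range n, (⌊(C / ε + 1) * c i⌋ : ℝ) • d i)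
    ((C / ε + 1) • ∑ i ∈ range n, c i • d i)
  rw [norm_sub_rev] at h5
  rw [norm_smul_of_nonneg hL.le] at h4 h5
  refine le_of_mul_le_mul_left ?_ hL
  have h6 : (C / ε + 1) * ε = C + ε := by field_simp
  nlinarith

theorem exists_lin {n : ℕ} {d D : ℕ → X}
    (h : ∀ c : ℕ → ℝ, ‖∑ i ∈ range n, c i • D i‖ ≤ ‖∑ i ∈ range n, c i • d i‖) :
    ∃ B : X →ₗ[ℝ] X, (∀ i < n, B (d i) = D i) ∧
      ∀ v ∈ Submodule.span ℝ (d '' Set.Iio n), ‖B v‖ ≤ ‖v‖ := by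
  let mk : (ℕ → X) → (ℕ → ℝ) →ₗ[ℝ] X := fun v =>
    ∑ i ∈ range n, (LinearMap.proj i : (ℕ → ℝ) →ₗ[ℝ] ℝ).smulRight (v i)
  have hmk : ∀ v c, mk v c = ∑ i ∈ range n, c i • v i := by
    intro v c
    simp [mk, LinearMap.sum_apply]
  obtain ⟨g, hg⟩ := (mk d).rangeRestrict.exists_rightInverse_of_surjective
    (LinearMap.range_rangeRestrict _)
  obtain ⟨B, hB⟩ := LinearMap.exists_extend ((mk D).comp g)
  have key : ∀ c, B (mk d c) = mk D c := by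
    intro c
    have h1 := LinearMap.congr_fun hB ⟨mk d c, c, rfl⟩
    have h2 := congrArg Subtype.val (LinearMap.congr_fun hg ⟨mk d c, c, rfl⟩)
    simp only [LinearMap.comp_apply, Submodule.subtype_apply, LinearMap.id_apply,
      LinearMap.codRestrict_apply, LinearMap.rangeRestrict] at h1 h2
    have h3 := h (g ⟨mk d c, c, rfl⟩ - c)
    rw [← hmk, ← hmk, map_sub, map_sub, h2, sub_self, norm_zero, norm_le_zero_iff,
      sub_eq_zero] at h3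
    rw [h1, h3]
  have single : ∀ v : ℕ → X, ∀ i < n, mk v (Pi.single i 1) = v i := by
    intro v i hi
    rw [hmk, sum_eq_single i (fun j _ hj => by simp [hj]) fun h => absurd (mem_range.2 hi) h]
    simp
  refine ⟨B, fun i hi => ?_, fun v hv => ?_⟩
  · rw [← single d i hi, key, single D i hi]
  · have : Submodule.span ℝ (d '' Set.Iio n) ≤ LinearMap.range (mk d) := by
      rw [Submodule.span_le]
      rintro _ ⟨i, hi, rfl⟩
      exact ⟨_, single d i hi⟩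
    obtain ⟨c, rfl⟩ := this hv
    rw [key, hmk, hmk]
    exact h c

theorem exists_deriv (hX : Refl X) {n : ℕ} {d : ℕ → X} {F : (ℕ → ℝ) → X} (hF : CubeLip n d F)
    (hd : ∀ i < n, ‖d i‖ ≤ 1) (hb : Bd F) :
    ∃ B : X →ₗ[ℝ] X,
      (∀ i < n, B (d i) = AV n (fun γ => F (update γ i 1)) - AV n fun γ => F (update γ i 0)) ∧
      ∀ v ∈ Submodule.span ℝ (d '' Set.Iio n), ‖B v‖ ≤ ‖v‖ :=
  exists_lin (real_of_int (AV_contr_int hX hF hd hb))

end Vale.Agent.P079
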