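import Vale.Agent.P079.Weak

namespace Vale.Agent.P079

open Filter Topology Finset Function

variable {X : Type*} [NormedAddCommGroup X] [NormedSpace ℝ X]

noncomputable def avg (N : ℕ) (h : ℝ) : ℕ → ((ℕ → ℝ) → X) →ₗ[ℝ] ((ℕ → ℝ) → X)
  | 0 => LinearMap.id
  | n + 1 => ((N : ℝ)⁻¹ • ∑ s ∈ range N,
      LinearMap.funLeft ℝ X fun σ : ℕ → ℝ => σ + Pi.single n ((s : ℝ) * h)) ∘ₗ avg N h n

variable {N : ℕ} {h : ℝ}

theorem avg_zero (F : (ℕ → ℝ) → X) (σ : ℕ → ℝ) : avg N h 0 F σ = F σ := rfl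

theorem avg_succ (n : ℕ) (F : (ℕ → ℝ) → X) (σ : ℕ → ℝ) :
    avg N h (n + 1) F σ
      = (N : ℝ)⁻¹ • ∑ s ∈ range N, avg N h n F (σ + Pi.single n ((s : ℝ) * h)) := by
  simp [avg, Finset.sum_apply, LinearMap.funLeft_apply]

theorem avg_shift (n : ℕ) (F : (ℕ → ℝ) → X) (σ τ : ℕ → ℝ) :
    avg N h n F (σ + τ) = avg N h n (fun γ => F (σ + γ)) τ := by
  induction n generalizing τ with
  | zero => rfl
  | succ n ih => simp only [avg_succ, add_assoc, ih]

theorem avg_mem (hN : 0 < N) (hh : 0 ≤ h) {C : Set X} (hC : Convex ℝ C) (n : ℕ)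
    (F : (ℕ → ℝ) → X) (σ : ℕ → ℝ)
    (hF : ∀ γ : ℕ → ℝ, (∀ i, 0 ≤ γ i ∧ γ i ≤ N * h) → (∀ i, n ≤ i → γ i = 0) → F (σ + γ) ∈ C) :
    avg N h n F σ ∈ C := by
  induction n generalizing σ with
  | zero => simpa [avg_zero] using hF 0 (fun i => ⟨le_rfl, by positivity⟩) fun _ _ => rfl
  | succ n ih =>
    have hN' : (0 : ℝ) < N := by exact_mod_cast hN
    rw [avg_succ, smul_sum]
    refine hC.sum_mem (fun _ _ => by positivity) (by simp [hN'.ne']) fun s hs => ?_
    refine ih _ fun γ h1 h2 => ?_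
    rw [add_assoc]
    refine hF _ (fun i => ?_) fun i hi => ?_
    · rcases eq_or_ne i n with rfl | hi
      · have : (s : ℝ) ≤ N := by exact_mod_cast (mem_range.1 hs).le
        simp only [Pi.add_apply, Pi.single_eq_same, h2 i le_rfl, add_zero]
        exact ⟨by positivity, mul_le_mul_of_nonneg_right this hh⟩
      · simpa [Pi.single_eq_of_ne hi] using h1 i
    · have : i ≠ n := by omega
      simp [Pi.single_eq_of_ne this, h2 i (by omega)]

theorem avg_pair (hN : 0 < N) (hh : 0 ≤ h) (n : ℕ) (F G : (ℕ → ℝ) → X) (σ σ' : ℕ → ℝ) {ρ : ℝ}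
    (hF : ∀ γ : ℕ → ℝ, (∀ i, 0 ≤ γ i ∧ γ i ≤ N * h) → ‖F (σ + γ) - G (σ' + γ)‖ ≤ ρ) :
    ‖avg N h n F σ - avg N h n G σ'‖ ≤ ρ := by
  have h1 := avg_shift (N := N) (h := h) n F σ 0
  have h2 := avg_shift (N := N) (h := h) n G σ' 0
  rw [add_zero] at h1 h2
  have h3 := avg_mem hN hh (convex_closedBall (0 : X) ρ) n
    ((fun γ => F (σ + γ)) - fun γ => G (σ' + γ)) 0 fun γ hγ _ => by simpa using hF γ hγ
  rw [map_sub] at h3
  rw [h1, h2]
  simpa using h3

theorem avg_upd {n i : ℕ} (hi : n ≤ i) (F : (ℕ → ℝ) → X) (a : ℝ) (σ : ℕ → ℝ) :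
    avg N h n (fun γ => F (update γ i a)) σ = avg N h n F (update σ i a) := by
  induction n generalizing σ with
  | zero => rfl
  | succ n ih =>
    simp only [avg_succ, ih (by omega)]
    congr 1
    refine sum_congr rfl fun s _ => congrArg (avg N h n F) ?_
    funext j
    rcases eq_or_ne j i with rfl | hj
    · have : j ≠ n := by omega
      simp [Pi.single_eq_of_ne this]
    · simp [update_of_ne hj]

theorem avg_step (hN : 0 < N) {n i : ℕ} (hi : i < n) (F : (ℕ → ℝ) → X) (σ : ℕ → ℝ) :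
    (N : ℝ) • (avg N h n F (σ + Pi.single i h) - avg N h n F σ)
      = avg N h n (fun γ => F (update γ i (σ i + N * h))) σ
        - avg N h n (fun γ => F (update γ i (σ i))) σ := by
  have hN' : (N : ℝ) ≠ 0 := by exact_mod_cast hN.ne'
  induction n generalizing σ with
  | zero => omega
  | succ n ih =>
    rcases eq_or_ne i n with rfl | hin
    · have e1 : ∀ (a t : ℝ), update (σ + Pi.single i t) i (σ i + a) = σ + Pi.single i a := by
        intro a t
        funext j
        rcases eq_or_ne j i with rfl | hj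
        · simp
        · simp [update_of_ne hj, Pi.single_eq_of_ne hj]
      have e2 := e1 0
      simp only [add_zero, Pi.single_zero] at e2
      simp only [avg_succ, avg_upd le_rfl, e1, e2, sum_const, card_range, ← smul_sub,
        ← Nat.cast_smul_eq_nsmul ℝ, smul_smul, mul_inv_cancel₀ hN', inv_mul_cancel₀ hN', one_smul]
      rw [← sum_sub_distrib]
      have e3 := sum_range_sub (fun s : ℕ => avg N h i F (σ + Pi.single i ((s : ℝ) * h))) N
      simp only [Nat.cast_zero, zero_mul, Pi.single_zero, add_zero] at e3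
      rw [← e3]
      refine sum_congr rfl fun s _ => ?_
      have e4 : h + (s : ℝ) * h = ((s + 1 : ℕ) : ℝ) * h := by
        push_cast
        ring
      rw [add_assoc, ← Pi.single_add, e4]
    · simp only [avg_succ, ← smul_sub, ← sum_sub_distrib]
      rw [smul_comm, smul_sum]
      congr 1
      refine sum_congr rfl fun s _ => ?_
      have e := ih (by omega) (σ + Pi.single n ((s : ℝ) * h))
      simp only [Pi.add_apply, Pi.single_eq_of_ne hin, add_zero] at e
      rw [← e, add_right_comm]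

theorem avg_extend (hN : 0 < N) {n n' : ℕ} (hn : n ≤ n') (G : (ℕ → ℝ) → X)
    (hG : ∀ i, n ≤ i → ∀ σ a, G (Pi.single i a + σ) = G σ) (σ : ℕ → ℝ) :
    avg N h n' G σ = avg N h n G σ := by
  have hN' : (N : ℝ) ≠ 0 := by exact_mod_cast hN.ne'
  induction n', hn using Nat.le_induction generalizing σ with
  | base => rfl
  | succ m hm ih =>
    have e : ∀ a, avg N h n G (σ + Pi.single m a) = avg N h n G σ := by
      intro a
      rw [add_comm, avg_shift]
      simp only [hG m hm]
    simp only [avg_succ, ih, e, sum_const, card_range, ← Nat.cast_smul_eq_nsmul ℝ, smul_smul,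
      inv_mul_cancel₀ hN', one_smul]

end Vale.Agent.P079
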