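import Vale.Agent.P079.Avg

namespace Vale.Agent.P079

open Filter Topology Finset Function

variable {X : Type*} [NormedAddCommGroup X] [NormedSpace ℝ X]

def CubeLip (n : ℕ) (d : ℕ → X) (F : (ℕ → ℝ) → X) : Prop :=
  ∀ σ σ' : ℕ → ℝ, (∀ i < n, 0 ≤ σ i ∧ σ i ≤ 1) → (∀ i < n, 0 ≤ σ' i ∧ σ' i ≤ 1) →
    ‖F σ - F σ'‖ ≤ ‖∑ i ∈ range n, (σ i - σ' i) • d i‖

variable {N : ℕ} {h : ℝ} {n : ℕ} {d : ℕ → X} {F : (ℕ → ℝ) → X}

theorem face_est (hN : 0 < N) (hh : 0 ≤ h) (hF : CubeLip n d F) (hd : ∀ i < n, ‖d i‖ ≤ 1)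
    {σ : ℕ → ℝ} {ρ : ℝ} (hσ : ∀ i, 0 ≤ σ i) (hρ : ∑ i ∈ range n, σ i ≤ ρ) (hρ' : ρ + N * h ≤ 1)
    {i : ℕ} (hi : i < n) {c c' : ℝ} (hc : 0 ≤ c ∧ c ≤ 1) (hc' : 0 ≤ c' ∧ c' ≤ 1) :
    ‖avg N h n (fun γ => F (update γ i c)) σ - avg N h n (fun γ => F (update γ i c')) 0‖
      ≤ ρ + |c - c'| := by
  refine avg_pair hN hh n _ _ _ _ fun γ hγ => ?_
  have hσ' : ∀ j < n, σ j ≤ ρ := fun j hj =>
    (single_le_sum (f := σ) (fun j _ => hσ j) (mem_range.2 hj)).trans hρ
  have hρ0 : 0 ≤ ρ := (hσ i).trans (hσ' i hi)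
  refine (hF _ _ (fun j hj => ?_) fun j hj => ?_).trans ?_
  · rcases eq_or_ne j i with rfl | hji
    · simpa using hc
    · simp only [update_of_ne hji, Pi.add_apply]
      exact ⟨add_nonneg (hσ j) (hγ j).1, by linarith [hσ' j hj, (hγ j).2]⟩
  · rcases eq_or_ne j i with rfl | hji
    · simpa using hc'
    · simp only [update_of_ne hji, zero_add]
      exact ⟨(hγ j).1, by linarith [(hγ j).2]⟩
  · refine (norm_sum_le _ _).trans ?_
    have e : ∑ j ∈ range n, ‖(update (σ + γ) i c j - update (0 + γ) i c' j) • d j‖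
        ≤ ∑ j ∈ range n, (σ j + if j = i then |c - c'| else 0) := by
      refine sum_le_sum fun j hj => ?_
      rw [norm_smul, Real.norm_eq_abs]
      refine (mul_le_of_le_one_right (abs_nonneg _) (hd j (mem_range.1 hj))).trans ?_
      rcases eq_or_ne j i with rfl | hji
      · simpa using hσ j
      · simp [hji, abs_of_nonneg (hσ j)]
    rw [sum_add_distrib, sum_ite_eq', if_pos (mem_range.2 hi)] at e
    linarith

theorem tele (hN : 0 < N) (hh : 0 ≤ h) (hF : CubeLip n d F) (hd : ∀ i < n, ‖d i‖ ≤ 1)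
    {ρ : ℝ} (hρ' : ρ + N * h ≤ 1) (k : ℕ) (a : ℕ → ℕ) (ha : ∀ i, n ≤ i → a i = 0)
    (hk : ∑ i ∈ range n, a i = k) (hkρ : k * h ≤ ρ) :
    ‖(N : ℝ) • (avg N h n F (fun i => a i * h) - avg N h n F 0) - ∑ i ∈ range n, (a i : ℝ) •
      (avg N h n (fun γ => F (update γ i 1)) 0 - avg N h n (fun γ => F (update γ i 0)) 0)‖
      ≤ k * (2 * ρ + (1 - N * h)) := by
  induction k generalizing a with
  | zero =>
    have h0 : ∀ i, a i = 0 := fun i => by
      by_cases hi : i < n
      · exact sum_eq_zero_iff.1 hk i (mem_range.2 hi)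
      · exact ha i (by omega)
    have h1 : (fun i => (a i : ℝ) * h) = 0 := funext fun i => by simp [h0 i]
    rw [h1]
    simp [h0]
  | succ k ih =>
    obtain ⟨i, hi, hai⟩ := exists_ne_zero_of_sum_ne_zero (hk.trans_ne (Nat.succ_ne_zero k))
    have hi' := mem_range.1 hi
    let b : ℕ → ℕ := update a i (a i - 1)
    have hb : ∀ j, a j = b j + if j = i then 1 else 0 := by
      intro j
      rcases eq_or_ne j i with rfl | hj
      · simp only [b, update_self, if_true]
        omega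
      · simp [b, hj]
    have hbk : ∑ j ∈ range n, b j = k := by
      have : ∑ j ∈ range n, a j = ∑ j ∈ range n, (b j + if j = i then 1 else 0) :=
        sum_congr rfl fun j _ => hb j
      rw [sum_add_distrib, sum_ite_eq', if_pos hi] at this
      omega
    have hkρ' : k * h ≤ ρ := by
      push_cast at hkρ
      linarith
    have h1 := ih b (fun j hj => by
      have : j ≠ i := by omega
      simp [b, update_of_ne this, ha j hj]) hbk hkρ'
    set σ : ℕ → ℝ := fun j => b j * h with hσ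
    have hσ0 : ∀ j, 0 ≤ σ j := fun j => by positivity
    have hσs : ∑ j ∈ range n, σ j ≤ ρ := by
      simp only [hσ, ← sum_mul]
      rw [← Nat.cast_sum, hbk]
      exact hkρ'
    have hσi : σ i ≤ ρ := (single_le_sum (f := σ) (fun j _ => hσ0 j) hi).trans hσs
    have hNh : 0 ≤ N * h := by positivity
    have e1 : (fun j => (a j : ℝ) * h) = σ + Pi.single i h := by
      funext j
      rw [hb j]
      rcases eq_or_ne j i with rfl | hj
      · simp [hσ, add_mul]
      · simp [hσ, hj]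
    have h2 := face_est hN hh hF hd hσ0 hσs hρ' hi' (c := σ i + N * h) (c' := 1)
      ⟨add_nonneg (hσ0 i) hNh, by linarith⟩ ⟨zero_le_one, le_rfl⟩
    have h3 := face_est hN hh hF hd hσ0 hσs hρ' hi' (c := σ i) (c' := 0)
      ⟨hσ0 i, by linarith⟩ ⟨le_rfl, zero_le_one⟩
    have h4 := avg_step (h := h) hN hi' F σ
    rw [abs_of_nonpos (by linarith)] at h2
    rw [sub_zero, abs_of_nonneg (hσ0 i)] at h3
    set Δ : ℕ → X := fun j =>
      avg N h n (fun γ => F (update γ j 1)) 0 - avg N h n (fun γ => F (update γ j 0)) 0 with hΔ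
    have e2 : ∑ j ∈ range n, (a j : ℝ) • Δ j = ∑ j ∈ range n, (b j : ℝ) • Δ j + Δ i := by
      have : ∀ j, (a j : ℝ) • Δ j = (b j : ℝ) • Δ j + if j = i then Δ j else 0 := by
        intro j
        rw [hb j]
        split_ifs <;> simp [add_smul]
      simp only [this]
      rw [sum_add_distrib, sum_ite_eq', if_pos hi]
    rw [e1, e2]
    have e3 : (N : ℝ) • (avg N h n F (σ + Pi.single i h) - avg N h n F 0)
        - (∑ j ∈ range n, (b j : ℝ) • Δ j + Δ i)
        = ((N : ℝ) • (avg N h n F σ - avg N h n F 0) - ∑ j ∈ range n, (b j : ℝ) • Δ j)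
          + ((avg N h n (fun γ => F (update γ i (σ i + N * h))) σ
              - avg N h n (fun γ => F (update γ i 1)) 0)
            - (avg N h n (fun γ => F (update γ i (σ i))) σ
              - avg N h n (fun γ => F (update γ i 0)) 0)) := by
      have e4 : (N : ℝ) • (avg N h n F (σ + Pi.single i h) - avg N h n F 0)
          = (N : ℝ) • (avg N h n F (σ + Pi.single i h) - avg N h n F σ)
            + (N : ℝ) • (avg N h n F σ - avg N h n F 0) := by
        rw [← smul_add, sub_add_sub_cancel]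
      rw [e4, h4]
      simp only [hΔ]
      abel
    rw [e3]
    refine (norm_add_le _ _).trans ?_
    have h5 := (norm_sub_le _ _).trans (add_le_add h2 h3)
    push_cast
    linarith

theorem contr_fin (hN : 0 < N) (hh : 0 ≤ h) (hF : CubeLip n d F) (hd : ∀ i < n, ‖d i‖ ≤ 1)
    (c : ℕ → ℤ) {k : ℕ} (hk : ∑ i ∈ range n, (c i).natAbs = k) (hρ' : k * h + N * h ≤ 1) :
    ‖∑ i ∈ range n, (c i : ℝ) •
      (avg N h n (fun γ => F (update γ i 1)) 0 - avg N h n (fun γ => F (update γ i 0)) 0)‖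
      ≤ ‖∑ i ∈ range n, (c i : ℝ) • d i‖ + 2 * k * (2 * (k * h) + (1 - N * h)) := by
  let a : ℕ → ℕ := fun i => if i < n then (c i).toNat else 0
  let b : ℕ → ℕ := fun i => if i < n then (-c i).toNat else 0
  have hab : ∀ i < n, (c i : ℝ) = a i - b i := by
    intro i hi
    simp only [a, b, if_pos hi]
    exact_mod_cast (Int.toNat_sub_toNat_neg (c i)).symm
  have ha : ∑ i ∈ range n, a i ≤ k := by
    rw [← hk]
    refine sum_le_sum fun i hi => ?_
    simp only [a, if_pos (mem_range.1 hi)]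
    omega
  have hb : ∑ i ∈ range n, b i ≤ k := by
    rw [← hk]
    refine sum_le_sum fun i hi => ?_
    simp only [b, if_pos (mem_range.1 hi)]
    omega
  have hNh : 0 ≤ N * h := by positivity
  have hkh : 0 ≤ k * h := by positivity
  have ha' : ((∑ i ∈ range n, a i : ℕ) : ℝ) ≤ k := by exact_mod_cast ha
  have hb' : ((∑ i ∈ range n, b i : ℕ) : ℝ) ≤ k := by exact_mod_cast hb
  have h1 := tele hN hh hF hd hρ' _ a (fun i hi => if_neg (by omega)) rfl
    (mul_le_mul_of_nonneg_right ha' hh)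
  have h2 := tele hN hh hF hd hρ' _ b (fun i hi => if_neg (by omega)) rfl
    (mul_le_mul_of_nonneg_right hb' hh)
  have he : 0 ≤ 2 * (k * h) + (1 - N * h) := by linarith
  have h1' := h1.trans (mul_le_mul_of_nonneg_right ha' he)
  have h2' := h2.trans (mul_le_mul_of_nonneg_right hb' he)
  have cube : ∀ (a : ℕ → ℕ), ∑ i ∈ range n, a i ≤ k → ∀ γ : ℕ → ℝ,
      (∀ i, 0 ≤ γ i ∧ γ i ≤ N * h) → ∀ i < n, 0 ≤ ((fun i => (a i : ℝ) * h) + γ) i ∧
        ((fun i => (a i : ℝ) * h) + γ) i ≤ 1 := by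
    intro a ha γ hγ i hi
    have h3 : a i ≤ k := (single_le_sum (f := a) (fun _ _ => Nat.zero_le _) (mem_range.2 hi)).trans ha
    have h4 : (a i : ℝ) ≤ k := by exact_mod_cast h3
    have h5 := mul_le_mul_of_nonneg_right h4 hh
    simp only [Pi.add_apply]
    exact ⟨add_nonneg (by positivity) (hγ i).1, by linarith [(hγ i).2]⟩
  have h3 : ‖avg N h n F (fun i => a i * h) - avg N h n F (fun i => b i * h)‖
      ≤ h * ‖∑ i ∈ range n, (c i : ℝ) • d i‖ := by
    refine avg_pair hN hh n _ _ _ _ fun γ hγ => ?_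
    refine (hF _ _ (cube a ha γ hγ) (cube b hb γ hγ)).trans (le_of_eq ?_)
    rw [← norm_smul_of_nonneg hh, smul_sum]
    congr 1
    refine sum_congr rfl fun i hi => ?_
    rw [smul_smul, hab i (mem_range.1 hi)]
    congr 1
    simp only [Pi.add_apply]
    ring
  set Δ : ℕ → X := fun j =>
    avg N h n (fun γ => F (update γ j 1)) 0 - avg N h n (fun γ => F (update γ j 0)) 0 with hΔ
  have e : ∑ i ∈ range n, (c i : ℝ) • Δ i
      = (N : ℝ) • (avg N h n F (fun i => a i * h) - avg N h n F (fun i => b i * h))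
        - (((N : ℝ) • (avg N h n F (fun i => a i * h) - avg N h n F 0)
            - ∑ i ∈ range n, (a i : ℝ) • Δ i)
          - ((N : ℝ) • (avg N h n F (fun i => b i * h) - avg N h n F 0)
            - ∑ i ∈ range n, (b i : ℝ) • Δ i)) := by
    have : ∑ i ∈ range n, (c i : ℝ) • Δ i
        = ∑ i ∈ range n, (a i : ℝ) • Δ i - ∑ i ∈ range n, (b i : ℝ) • Δ i := by
      rw [← sum_sub_distrib]
      exact sum_congr rfl fun i hi => by rw [hab i (mem_range.1 hi), sub_smul]
    rw [this]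
    simp only [smul_sub]
    abel
  rw [e]
  refine (norm_sub_le _ _).trans ?_
  have h4 := (norm_sub_le _ _).trans (add_le_add h1' h2')
  rw [norm_smul_of_nonneg (Nat.cast_nonneg N)]
  have h5 := mul_le_mul_of_nonneg_left h3 (Nat.cast_nonneg (α := ℝ) N)
  have h6 : N * h * ‖∑ i ∈ range n, (c i : ℝ) • d i‖ ≤ ‖∑ i ∈ range n, (c i : ℝ) • d i‖ :=
    mul_le_of_le_one_left (norm_nonneg _) (by linarith)
  linarith

end Vale.Agent.P079
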