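import Vale.Agent.P079.AV

namespace Vale.Agent.P079

open Filter Topology Finset Function

variable {X : Type*} [NormedAddCommGroup X] [NormedSpace ℝ X]

structure Base (K : Set X) (w : X) : Prop where
  refl : Refl X
  conv : Convex ℝ K
  cl : IsClosed K
  hw : w ∈ K
  diam : ∀ a ∈ K, ∀ b ∈ K, ‖a - b‖ ≤ 1

def NE (K : Set X) (f : X → X) : Prop :=
  (∀ a ∈ K, f a ∈ K) ∧ ∀ a ∈ K, ∀ b ∈ K, ‖f a - f b‖ ≤ ‖a - b‖

def pt (w : X) (n : ℕ) (wt : ℕ → ℝ) (lo up : ℕ → X) (σ : ℕ → ℝ) : X :=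
  w + ∑ i ∈ range n, wt i • (lo i + σ i • (up i - lo i) - w)

def Arr (K : Set X) (n : ℕ) (wt : ℕ → ℝ) (lo up : ℕ → X) : Prop :=
  (∀ i < n, 0 ≤ wt i ∧ lo i ∈ K ∧ up i ∈ K) ∧ ∑ i ∈ range n, wt i ≤ 1

variable {K : Set X} {w : X} {n : ℕ} {wt : ℕ → ℝ} {lo up : ℕ → X}

theorem seg_mem (hB : Base K w) {a b : X} (ha : a ∈ K) (hb : b ∈ K) {s : ℝ} (h : 0 ≤ s ∧ s ≤ 1) :
    a + s • (b - a) ∈ K := hB.conv.add_smul_sub_mem ha hb h

theorem pt_eq (a : X) (σ : ℕ → ℝ) : pt w n wt lo up σ - a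
    = (1 - ∑ i ∈ range n, wt i) • (w - a)
      + ∑ i ∈ range n, wt i • (lo i + σ i • (up i - lo i) - a) := by
  have e : ∀ i, wt i • (lo i + σ i • (up i - lo i) - w)
      = wt i • (lo i + σ i • (up i - lo i) - a) - wt i • (w - a) := fun i => by
    rw [← smul_sub, sub_sub_sub_cancel_right]
  simp only [pt, e, sum_sub_distrib, ← sum_smul, sub_smul, one_smul]
  abel

theorem pt_mem (hB : Base K w) (hA : Arr K n wt lo up) {σ : ℕ → ℝ}
    (hσ : ∀ i < n, 0 ≤ σ i ∧ σ i ≤ 1) : pt w n wt lo up σ ∈ K := by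
  let c : ℕ → ℝ := fun i => if i < n then wt i else 1 - ∑ i ∈ range n, wt i
  let z : ℕ → X := fun i => if i < n then lo i + σ i • (up i - lo i) else w
  have e1 : ∑ i ∈ range n, c i = ∑ i ∈ range n, wt i :=
    sum_congr rfl fun i hi => if_pos (mem_range.1 hi)
  have e2 : ∑ i ∈ range n, c i • z i = ∑ i ∈ range n, wt i • (lo i + σ i • (up i - lo i)) :=
    sum_congr rfl fun i hi => by simp only [c, z, if_pos (mem_range.1 hi)]
  have h := hB.conv.sum_mem (t := range (n + 1)) (w := c) (z := z) (fun i _ => by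
      simp only [c]
      split_ifs with hi
      · exact (hA.1 i hi).1
      · linarith [hA.2])
    (by rw [sum_range_succ, e1]; simp [c]) fun i _ => by
      simp only [z]
      split_ifs with hi
      · exact seg_mem hB (hA.1 i hi).2.1 (hA.1 i hi).2.2 (hσ i hi)
      · exact hB.hw
  have e3 := pt_eq (w := w) (n := n) (wt := wt) (lo := lo) (up := up) 0 σ
  simp only [sub_zero] at e3
  rw [sum_range_succ, e2] at h
  simp only [c, z, lt_irrefl, if_false] at h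
  rwa [e3, add_comm]

theorem pt_dist (hB : Base K w) (hA : Arr K n wt lo up) {σ : ℕ → ℝ} (hσ : InCube σ) {i : ℕ}
    (hi : i < n) : ‖pt w n wt lo up σ - (lo i + σ i • (up i - lo i))‖ ≤ 1 - wt i := by
  have hm : ∀ j < n, lo j + σ j • (up j - lo j) ∈ K := fun j hj =>
    seg_mem hB (hA.1 j hj).2.1 (hA.1 j hj).2.2 (hσ j)
  rw [pt_eq]
  refine (norm_add_le _ _).trans ?_
  have h1 : ‖(1 - ∑ i ∈ range n, wt i) • (w - (lo i + σ i • (up i - lo i)))‖
      ≤ 1 - ∑ i ∈ range n, wt i := by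
    rw [norm_smul_of_nonneg (by linarith [hA.2])]
    exact mul_le_of_le_one_right (by linarith [hA.2]) (hB.diam _ hB.hw _ (hm i hi))
  have h2 : ‖∑ j ∈ range n, wt j • (lo j + σ j • (up j - lo j) - (lo i + σ i • (up i - lo i)))‖
      ≤ ∑ j ∈ range n, (wt j - if j = i then wt j else 0) := by
    refine (norm_sum_le _ _).trans (sum_le_sum fun j hj => ?_)
    have hj' := mem_range.1 hj
    split_ifs with hji
    · simp [hji]
    · rw [norm_smul_of_nonneg (hA.1 j hj').1, sub_zero]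
      exact mul_le_of_le_one_right (hA.1 j hj').1 (hB.diam _ (hm j hj') _ (hm i hi))
  rw [sum_sub_distrib, sum_ite_eq', if_pos (mem_range.2 hi)] at h2
  linarith

theorem pt_trunc (hB : Base K w) (hA : Arr K n wt lo up) {σ : ℕ → ℝ} (hσ : InCube σ) {m : ℕ}
    (hm : m ≤ n) : ‖pt w n wt lo up σ - pt w m wt lo up σ‖ ≤ ∑ i ∈ Ico m n, wt i := by
  simp only [pt, add_sub_add_left_eq_sub]
  rw [← sum_Ico_eq_sub _ hm]
  refine (norm_sum_le _ _).trans (sum_le_sum fun j hj => ?_)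
  have hj' := (mem_Ico.1 hj).2
  rw [norm_smul_of_nonneg (hA.1 j hj').1]
  exact mul_le_of_le_one_right (hA.1 j hj').1
    (hB.diam _ (seg_mem hB (hA.1 j hj').2.1 (hA.1 j hj').2.2 (hσ j)) _ hB.hw)

theorem bd_of_mem (hB : Base K w) {F : (ℕ → ℝ) → X} (hF : ∀ σ, InCube σ → F σ ∈ K) : Bd F :=
  ⟨1 + ‖w‖, fun σ h => by
    linarith [norm_sub_norm_le (F σ) w, hB.diam _ (hF σ h) _ hB.hw]⟩

noncomputable def face (w : X) (n : ℕ) (wt : ℕ → ℝ) (lo up : ℕ → X) (f : X → X) (i : ℕ) (c : ℝ) :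
    X := AV n fun γ => f (pt w n wt lo up (update γ i c))

theorem face_in (hB : Base K w) (hA : Arr K n wt lo up) {f : X → X} (hf : NE K f) (i : ℕ) {c : ℝ}
    (h0 : 0 ≤ c) (h1 : c ≤ 1) (σ : ℕ → ℝ) (hσ : InCube σ) :
    f (pt w n wt lo up (update σ i c)) ∈ K :=
  hf.1 _ (pt_mem hB hA fun j _ => hσ.update i h0 h1 j)

theorem face_mem (hB : Base K w) (hA : Arr K n wt lo up) {f : X → X} (hf : NE K f) (i : ℕ) {c : ℝ}
    (h0 : 0 ≤ c) (h1 : c ≤ 1) : face w n wt lo up f i c ∈ K :=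
  AV_mem hB.refl hB.conv hB.cl n (bd_of_mem hB (face_in hB hA hf i h0 h1))
    (face_in hB hA hf i h0 h1)

theorem face_dist (hB : Base K w) (hA : Arr K n wt lo up) {f : X → X} (hf : NE K f) {i : ℕ}
    (hi : i < n) {c : ℝ} (h0 : 0 ≤ c) (h1 : c ≤ 1) :
    ‖face w n wt lo up f i c - f (lo i + c • (up i - lo i))‖ ≤ 1 - wt i := by
  refine AV_dist hB.refl n fun σ hσ => ?_
  have h := pt_dist hB hA (hσ.update i h0 h1) hi
  rw [update_self] at h
  exact (hf.2 _ (pt_mem hB hA fun j _ => hσ.update i h0 h1 j) _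
    (seg_mem hB (hA.1 i hi).2.1 (hA.1 i hi).2.2 ⟨h0, h1⟩)).trans h

theorem face_deriv (hB : Base K w) (hA : Arr K n wt lo up) {f : X → X} (hf : NE K f) :
    ∃ B : X →ₗ[ℝ] X,
      (∀ i < n, B (wt i • (up i - lo i)) = face w n wt lo up f i 1 - face w n wt lo up f i 0) ∧
      ∀ v ∈ Submodule.span ℝ ((fun i => wt i • (up i - lo i)) '' Set.Iio n), ‖B v‖ ≤ ‖v‖ := by
  refine exists_deriv hB.refl (F := fun σ => f (pt w n wt lo up σ)) (fun σ σ' h h' => ?_)
    (fun i hi => ?_) (bd_of_mem hB fun σ h => hf.1 _ (pt_mem hB hA fun j _ => h j))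
  · refine (hf.2 _ (pt_mem hB hA h) _ (pt_mem hB hA h')).trans (le_of_eq ?_)
    simp only [pt, add_sub_add_left_eq_sub, ← sum_sub_distrib]
    congr 1
    refine sum_congr rfl fun i _ => ?_
    rw [← smul_sub, smul_comm]
    congr 1
    rw [sub_smul]
    abel
  · have h1 : wt i ≤ 1 :=
      (single_le_sum (f := wt) (fun j hj => (hA.1 j (mem_range.1 hj)).1) (mem_range.2 hi)).trans hA.2
    rw [norm_smul_of_nonneg (hA.1 i hi).1]
    exact mul_le_one₀ h1 (norm_nonneg _) (hB.diam _ (hA.1 i hi).2.2 _ (hA.1 i hi).2.1)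

theorem face_sum (hB : Base K w) (hA : Arr K n wt lo up) {R : ℕ} {l : ℕ → ℝ} {S : ℕ → X → X}
    (hS : ∀ r < R, NE K (S r)) {f : X → X} (hf : NE K f)
    (he : ∀ z, f z = ∑ r ∈ range R, l r • S r z) (i : ℕ) {c : ℝ} (h0 : 0 ≤ c) (h1 : c ≤ 1) :
    face w n wt lo up f i c = ∑ r ∈ range R, l r • face w n wt lo up (S r) i c := by
  have hb := bd_of_mem hB (face_in hB hA hf i h0 h1)
  simp only [face, he] at hb ⊢
  exact AV_sum hB.refl n (range R) l (fun r γ => S r (pt w n wt lo up (update γ i c)))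
    (fun r hr => bd_of_mem hB (face_in hB hA (hS r (mem_range.1 hr)) i h0 h1)) hb

theorem Arr.mono (hA : Arr K n wt lo up) {m : ℕ} (hm : m ≤ n) : Arr K m wt lo up :=
  ⟨fun i hi => hA.1 i (by omega), (sum_le_sum_of_subset_of_nonneg (range_mono hm)
    fun i hi _ => (hA.1 i (mem_range.1 hi)).1).trans hA.2⟩

theorem pt_congr {wt' : ℕ → ℝ} {lo' up' : ℕ → X} {σ σ' : ℕ → ℝ}
    (h : ∀ i < n, wt i = wt' i ∧ lo i = lo' i ∧ up i = up' i ∧ σ i = σ' i) :
    pt w n wt lo up σ = pt w n wt' lo' up' σ' := by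
  unfold pt
  congr 1
  refine sum_congr rfl fun i hi => ?_
  obtain ⟨h1, h2, h3, h4⟩ := h i (mem_range.1 hi)
  rw [h1, h2, h3, h4]

theorem pt_low (i : ℕ) (σ : ℕ → ℝ) :
    pt w (i + 1) wt lo up (update σ i 0) = pt w i wt lo up σ + wt i • (lo i - w) := by
  have e := pt_congr (w := w) (n := i) (wt := wt) (lo := lo) (up := up) (σ := update σ i 0)
    (σ' := σ) fun j hj => ⟨rfl, rfl, rfl, update_of_ne hj.ne _ _⟩
  rw [← e]
  simp [pt, sum_range_succ, add_assoc]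

theorem face_low (hB : Base K w) (hA : Arr K n wt lo up) {f : X → X} (hf : NE K f) {i : ℕ}
    (hi : i < n) : ‖face w n wt lo up f i 0
      - AV i (fun σ => f (pt w i wt lo up σ + wt i • (lo i - w)))‖ ≤ ∑ j ∈ Ico (i + 1) n, wt j := by
  have hA' := hA.mono (m := i + 1) hi
  refine AV_pair hB.refl hi.le (bd_of_mem hB (face_in hB hA hf i le_rfl zero_le_one))
    (bd_of_mem hB fun σ hσ => ?_) (fun j hj σ a => ?_) fun σ hσ => ?_
  · rw [← pt_low]
    exact face_in hB hA' hf i le_rfl zero_le_one σ hσ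
  · congr 2
    refine pt_congr fun k hk => ⟨rfl, rfl, rfl, ?_⟩
    have : k ≠ j := by omega
    simp [this]
  · rw [← pt_low]
    have h1 := hσ.update i le_rfl zero_le_one
    exact (hf.2 _ (pt_mem hB hA fun j _ => h1 j) _ (pt_mem hB hA' fun j _ => h1 j)).trans
      (pt_trunc hB hA h1 hi)

end Vale.Agent.P079
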