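import Vale.Agent.P079.State

namespace Vale.Agent.P079

open Filter Topology Finset Function

variable {X : Type*} [NormedAddCommGroup X] [NormedSpace ℝ X]

def Ev (K : Set X) (P : X → StrongDual ℝ X → Prop) : Prop :=
  ∃ (Ys : Finset X) (η : ℝ), (∀ y ∈ Ys, y ∈ K) ∧ 0 < η ∧
    ∀ q ∈ K, ∀ e : StrongDual ℝ X, ‖e‖ ≤ 1 → (∀ y ∈ Ys, 1 - η ≤ e (q - y)) → P q e

variable {K : Set X} {w : X} {x : ℕ → X} {m : ℕ} {H : St X}

theorem Ev.and {P Q : X → StrongDual ℝ X → Prop} (hP : Ev K P) (hQ : Ev K Q) :
    Ev K fun q e => P q e ∧ Q q e := by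
  classical
  obtain ⟨A, a, hA, ha, h⟩ := hP
  obtain ⟨B, b, hB, hb, h'⟩ := hQ
  refine ⟨A ∪ B, min a b, fun y hy => (mem_union.1 hy).elim (hA y) (hB y), lt_min ha hb,
    fun q hq e he ht => ⟨h q hq e he fun y hy => ?_, h' q hq e he fun y hy => ?_⟩⟩
  · linarith [ht y (mem_union_left _ hy), min_le_left a b]
  · linarith [ht y (mem_union_right _ hy), min_le_right a b]

theorem Ev.mono {P Q : X → StrongDual ℝ X → Prop} (hP : Ev K P) (h : ∀ q e, P q e → Q q e) :
    Ev K Q := by
  obtain ⟨A, a, hA, ha, h'⟩ := hP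
  exact ⟨A, a, hA, ha, fun q hq e he ht => h _ _ (h' q hq e he ht)⟩

theorem dual_le {e : StrongDual ℝ X} (he : ‖e‖ ≤ 1) (v : X) : |e v| ≤ ‖v‖ :=
  (e.le_opNorm v).trans (mul_le_of_le_one_left (norm_nonneg _) he)

def ZZ (K : Set X) (w : X) : Submodule ℝ X := Submodule.span ℝ ((fun a => a - w) '' K)

theorem ev_small (hB : Base K w) {v : X} (hv : v ∈ ZZ K w) :
    ∀ η > 0, Ev K fun _ e => |e v| ≤ η := by
  classical
  induction hv using Submodule.span_induction with
  | mem v hv =>
    obtain ⟨a, ha, rfl⟩ := hv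
    intro η hη
    refine ⟨{a, w}, η, by simp [ha, hB.hw], hη, fun q hq e he ht => ?_⟩
    have h1 := ht a (by simp)
    have h2 := ht w (by simp)
    have h3 := (le_abs_self _).trans ((dual_le he _).trans (hB.diam q hq a ha))
    have h4 := (le_abs_self _).trans ((dual_le he _).trans (hB.diam q hq w hB.hw))
    simp only [map_sub] at h1 h2 h3 h4 ⊢
    rw [abs_le]
    constructor <;> linarith
  | zero => exact fun η hη => ⟨∅, 1, by simp, one_pos, fun q _ e _ _ => by simpa using hη.le⟩
  | add u v _ _ hu hv =>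
    intro η hη
    refine ((hu (η / 2) (by positivity)).and (hv (η / 2) (by positivity))).mono fun q e h => ?_
    rw [map_add]
    linarith [abs_add_le (e u) (e v), h.1, h.2]
  | smul c v _ hv =>
    intro η hη
    refine (hv (η / (|c| + 1)) (by positivity)).mono fun q e h => ?_
    rw [map_smul, smul_eq_mul, abs_mul]
    rw [le_div_iff₀ (by positivity)] at h
    nlinarith [abs_nonneg (e v)]

theorem ev_finset (hB : Base K w) (V : Finset X) (hV : ∀ v ∈ V, v ∈ ZZ K w) :
    Ev K fun _ e => ∀ v ∈ V, |e v| ≤ 1 / 4 := by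
  classical
  induction V using Finset.induction_on with
  | empty => exact ⟨∅, 1, by simp, one_pos, by simp⟩
  | insert a V _ ih =>
    refine ((ev_small hB (hV a (mem_insert_self _ _)) (1 / 4) (by norm_num)).and
      (ih fun v hv => hV v (mem_insert_of_mem hv))).mono fun q e h => ?_
    simpa using h

theorem Ev.eventually (hS : Setup K w x) {P : X → StrongDual ℝ X → Prop} (hP : Ev K P) :
    ∀ᶠ n in (hyperfilter ℕ : Filter ℕ), ∃ e : StrongDual ℝ X, ‖e‖ ≤ 1 ∧ P (x n) e := by
  classical
  obtain ⟨A, η, hA, hη, h⟩ := hP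
  let A' := insert w A
  have hA' : ∀ y ∈ A', y ∈ K := by
    intro y hy
    rcases mem_insert.1 hy with rfl | hy
    · exact hS.hw
    · exact hA y hy
  have hc : (0 : ℝ) < A'.card := by exact_mod_cast card_pos.2 (insert_nonempty w A)
  have hz : ∑ y ∈ A', ((A'.card : ℝ)⁻¹) • y ∈ K :=
    hS.conv.sum_mem (fun _ _ => by positivity) (by simp [hc.ne']) hA'
  filter_upwards [(hS.far _ hz).eventually (lt_mem_nhds (sub_lt_self 1 (div_pos hη hc)))]
    with n hn
  obtain ⟨e, he, he'⟩ := exists_dual_vector'' ℝ (x n - ∑ y ∈ A', ((A'.card : ℝ)⁻¹) • y)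
  refine ⟨e, he, h _ (hS.hx n) e he fun y hy => ?_⟩
  have h1 : ∀ y ∈ A', 0 ≤ 1 - e (x n - y) := fun y hy => by
    linarith [(le_abs_self _).trans ((dual_le he _).trans (hS.diam _ (hS.hx n) y (hA' y hy)))]
  have h2 := single_le_sum h1 (mem_insert_of_mem hy)
  have h3 : ∑ y ∈ A', (1 - e (x n - y))
      = A'.card * (1 - e (x n - ∑ y ∈ A', ((A'.card : ℝ)⁻¹) • y)) := by
    simp only [map_sub, map_sum, map_smul, smul_eq_mul, sum_sub_distrib, sum_const, nsmul_eq_mul,
      ← mul_sum]
    field_simp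
  rw [h3, he'] at h2
  have h4 : (A'.card : ℝ) * (η / A'.card) = η := by field_simp
  simp only [RCLike.ofReal_real_eq_id, id_eq] at h2
  nlinarith

noncomputable def chainZ (w : X) (H : St X) (m : ℕ) (p : X) : ℕ → X
  | 0 => p
  | k + 1 => Yeq w H H.R (m - (k + 1)) p (chainZ w H m p k)

theorem chainZ_mem (hB : Base K w) (hV : Valid K w x m H) {p : X} (hp : p ∈ K) :
    ∀ k ≤ m, chainZ w H m p k ∈ K := by
  intro k hk
  induction k with
  | zero => exact hp
  | succ k ih => exact hV.Yeq_mem hB (by omega) hp (ih (by omega))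

noncomputable def St.add (w : X) (H : St X) (m : ℕ) (q : X) (e : StrongDual ℝ X) (S : X → X) :
    St X where
  R := H.R + 1
  st := update H.st H.R m
  q := update H.q H.R q
  e := update H.e H.R e
  S := update H.S H.R S
  Y := update H.Y H.R fun j p => chainZ w H m p (m - j)
  lam := H.lam
  Sb := H.Sb

theorem extend_one (hS : Setup K w x) (hV : Valid K w x m H) (V : Finset X)
    (hVZ : ∀ v ∈ V, v ∈ ZZ K w) (Φ : Finset (StrongDual ℝ X)) {η : ℝ} (hη : 0 < η) :
    ∃ q e S, Valid K w x m (H.add w m q e S) ∧ (∀ v ∈ V, |e v| ≤ 1 / 4) ∧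
      ∀ φ ∈ Φ, |φ (q - w)| ≤ η := by
  have hB := hS.toBase
  have ht := tau_pos (H.R + 1)
  have hmem : ∀ n, chainZ w H m (x n) m ∈ K := fun n => chainZ_mem hB hV (hS.hx n) m le_rfl
  obtain ⟨yb, hyb⟩ := exists_WL hS.refl (hyperfilter ℕ) (fun n => chainZ w H m (x n) m) (1 + ‖w‖)
    fun n => by linarith [norm_sub_norm_le (chainZ w H m (x n) m) w, hB.diam _ (hmem n) _ hB.hw]
  have hybK : yb ∈ K := hyb.mem hB.conv hB.cl (Eventually.of_forall hmem)
  have e1 : Ev K fun q e => 1 - tau (H.R + 1) / 2 ≤ e (q - yb) :=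
    ⟨{yb}, tau (H.R + 1) / 2, by simpa using hybK, by positivity,
      fun q _ e _ h => h yb (mem_singleton_self _)⟩
  have e2 := (e1.and (ev_finset hB V hVZ)).eventually hS
  have e3 : ∀ᶠ n in (hyperfilter ℕ : Filter ℕ), ∀ j ∈ range m,
      ‖H.Sb j (x n) - x n‖ ≤ tau (H.R + 1) := (eventually_all_finset _).2 fun j hj =>
    (hV.fx hB (mem_range.1 hj)).2.eventually (ge_mem_nhds ht)
  have e4 : ∀ᶠ n in (hyperfilter ℕ : Filter ℕ), ∀ φ ∈ Φ, |φ (x n - w)| ≤ η :=
    (eventually_all_finset _).2 fun φ _ => by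
      have h1 := ((hS.hxw φ).sub_const (φ w)).abs
      simp only [sub_self, abs_zero] at h1
      simpa only [map_sub] using h1.eventually (ge_mem_nhds hη)
  obtain ⟨n, ⟨e, he, h1, h2⟩, h3, h4⟩ := (e2.and (e3.and e4)).exists
  obtain ⟨S, hS1, hS2⟩ := hS.maps (x n) (hS.hx n) _ ht
  refine ⟨x n, e, S, ⟨hV.le.trans (Nat.le_succ _), fun r hr => ?_, fun j hj => ?_⟩, h2, h4⟩
  · have cg : ∀ r ≤ H.R, ∀ j p y, Yeq w (H.add w m (x n) e S) r j p y = Yeq w H r j p y :=
      fun r hr j p y => Yeq_congr (H := H.add w m (x n) e S) (H' := H) (r := r) (j := j) rfl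
        (fun r' hr' => by
          have : r' ≠ H.R := by omega
          simp [St.add, this]) p y
    rcases eq_or_ne r H.R with rfl | hne
    · refine ⟨?_, ?_, ?_, ?_, ?_, ?_, ?_, ?_, ?_, ?_, ?_⟩
      · simpa [St.add] using hV.le
      · simp [St.add]
      · simpa [St.add] using hS.hx n
      · simpa [St.add] using hS1
      · simpa [St.add] using hS2
      · intro j p hp
        simpa [St.add] using chainZ_mem hB hV hp _ (Nat.sub_le m j)
      · intro p
        simp [St.add, chainZ]
      · intro j hj p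
        rw [cg _ le_rfl]
        simp only [St.add, update_self] at hj ⊢
        have e5 : m - j = (m - (j + 1)) + 1 := by omega
        have e6 : m - (m - (j + 1) + 1) = j := by omega
        rw [e5, chainZ, e6]
      · intro j hj
        simp only [St.add, update_self] at hj ⊢
        exact h3 j (mem_range.2 hj)
      · simpa [St.add] using he
      · have h5 := ((hyb e).const_sub (e (x n))).eventually
          (lt_mem_nhds (show 1 - tau (H.R + 1) < e (x n) - e yb by
            rw [← map_sub]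
            linarith))
        simp only [St.add, update_self, Nat.sub_zero, map_sub]
        exact h5.mono fun _ h => h.le
    · have hc := hV.cand r (by
        change r < H.R + 1 at hr
        omega)
      have hr' : r ≤ H.R := Nat.le_of_lt_succ hr
      refine ⟨?_, ?_, ?_, ?_, ?_, ?_, ?_, ?_, ?_, ?_, ?_⟩
      · simpa [St.add, hne] using hc.st1
      · simpa [St.add, hne] using hc.st2
      · simpa [St.add, hne] using hc.hq
      · simpa [St.add, hne] using hc.hS
      · simpa [St.add, hne] using hc.hSw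
      · simpa [St.add, hne] using hc.hY
      · simpa [St.add, hne] using hc.hY0
      · intro j hj p
        rw [cg _ hr']
        simp only [St.add, update_of_ne hne] at hj ⊢
        exact hc.hY1 j hj p
      · simpa [St.add, hne] using hc.fix
      · simpa [St.add, hne] using hc.he
      · simpa only [St.add, update_of_ne hne] using hc.tight
  · have hL := hV.lev j hj
    have h0 : H.lam j H.R = 0 := by
      by_contra h
      exact lt_irrefl _ (hL.supp _ h).1
    refine ⟨hL.nonneg, ?_, fun r hr => ?_, fun z => ?_, ?_⟩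
    · simpa [St.add, sum_range_succ, h0] using hL.sum
    · have := hL.supp r hr
      simp only [St.add, update_of_ne this.1.ne]
      exact ⟨Nat.lt_succ_of_lt this.1, this.2⟩
    · simp only [St.add, sum_range_succ, h0, zero_smul, add_zero]
      rw [hL.hSb]
      exact sum_congr rfl fun r hr => by rw [update_of_ne (mem_range.1 hr).ne]
    · simp only [St.add, sum_range_succ, h0, zero_smul, add_zero]
      rw [sum_congr rfl fun r hr => by rw [update_of_ne (mem_range.1 hr).ne]]
      exact hL.near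

end Vale.Agent.P079
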