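import Vale.Agent.P079.Realize

namespace Vale.Agent.P079

open Filter Topology Finset Function

variable {X : Type*} [NormedAddCommGroup X] [NormedSpace ℝ X]

theorem Setup.false {K : Set X} {w : X} {x : ℕ → X} (hS : Setup K w x) : False := by
  classical
  choose v hv1 hv2 hv3 using fun (k : ℕ) (H : St X) (h : Valid K w x k H) => realize hS h
  choose nx n1 n2 n3 n4 n5 using fun (m : ℕ) (H : St X) (h : Valid K w x m H) (V : Finset X)
    (hV : ∀ v ∈ V, v ∈ ZZ K w) => stage hS h V hV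
  let T : ℕ → Type _ := fun m => {z : St X × Finset X // Valid K w x m z.1 ∧ ∀ v ∈ z.2, v ∈ ZZ K w}
  have ins : ∀ m (z : T m), ∀ u ∈ insert (v m z.1.1 z.2.1) z.1.2, u ∈ ZZ K w := by
    intro m z u hu
    rcases mem_insert.1 hu with rfl | hu
    · exact hv1 _ _ _
    · exact z.2.2 u hu
  let s : ∀ m, T m := fun m => Nat.rec
    ⟨(⟨0, 0, 0, 0, 0, 0, 0, 0⟩, ∅), ⟨le_rfl, fun r h => absurd h (Nat.not_lt_zero r),
      fun r h => absurd h (Nat.not_lt_zero r)⟩, by simp⟩
    (fun m z => ⟨(nx m z.1.1 z.2.1 _ (ins m z), insert (v m z.1.1 z.2.1) z.1.2),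
      n1 _ _ _ _ _, ins m z⟩) m
  let H : ℕ → St X := fun m => (s m).1.1
  let u : ℕ → X := fun m => v m (H m) (s m).2.1
  have a2 : ∀ m, (H m).R ≤ (H (m + 1)).R := fun m => n2 _ _ _ _ (ins m (s m))
  have a3 : ∀ m, ∀ r < (H (m + 1)).R, (H (m + 1)).st r ≤ m := fun m => n3 _ _ _ _ (ins m (s m))
  have a4 : ∀ m, ∀ r < (H m).R, (H (m + 1)).st r = (H m).st r ∧ (H (m + 1)).e r = (H m).e r :=
    fun m => n4 _ _ _ _ (ins m (s m))
  have a5 : ∀ m r, (H m).R ≤ r → r < (H (m + 1)).R → (H (m + 1)).st r = m ∧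
      ∀ y ∈ (s (m + 1)).1.2, |(H (m + 1)).e r y| ≤ 1 / 4 := fun m => n5 _ _ _ _ (ins m (s m))
  have mR : Monotone fun m => (H m).R := monotone_nat_of_le_succ a2
  have mV : Monotone fun m => (s m).1.2 := monotone_nat_of_le_succ fun m => subset_insert _ _
  have b1 : ∀ m k, m ≤ k → ∀ r < (H m).R, (H k).st r = (H m).st r ∧ (H k).e r = (H m).e r := by
    intro m k hk r hr
    induction k, hk using Nat.le_induction with
    | base => exact ⟨rfl, rfl⟩
    | succ k hk ih =>
      have := a4 k r (hr.trans_le (mR hk))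
      exact ⟨this.1.trans ih.1, this.2.trans ih.2⟩
  have b2 : ∀ m k, m ≤ k → ∀ r < (H k).R, (H m).R ≤ r → m ≤ (H k).st r := by
    intro m k hk r
    induction k, hk using Nat.le_induction with
    | base => exact fun h h' => absurd h (not_lt.2 h')
    | succ k hk ih =>
      intro h h'
      by_cases hr : r < (H k).R
      · rw [(a4 k r hr).1]
        exact ih hr h'
      · rw [(a5 k r (not_lt.1 hr) h).1]
        exact hk
  have b3 : ∀ m, ∃ r ∈ Set.Ico (H m).R (H (m + 1)).R,
      ∀ᶠ k in (hyperfilter ℕ : Filter ℕ), (H (m + 1)).e r (u k) ≤ -1 / 2 := by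
    intro m
    rw [← Ultrafilter.eventually_exists_mem_iff (Set.finite_Ico _ _)]
    filter_upwards [hyper_le (eventually_ge_atTop (m + 1))] with k hk
    obtain ⟨r, h1, h2, h3⟩ := hv3 k (H k) (s k).2.1 m hk
    have h4 : r < (H (m + 1)).R := by
      by_contra h
      have := b2 (m + 1) k hk r h1 (not_lt.1 h)
      omega
    refine ⟨r, ⟨?_, h4⟩, by rwa [← (b1 _ k hk r h4).2]⟩
    by_contra h
    rcases m with _ | m
    · exact h (Nat.zero_le r)
    · have h5 := (b1 (m + 1) k (by omega) r (not_le.1 h)).1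
      have h6 := a3 m r (not_le.1 h)
      omega
  choose r hr hr' using b3
  have := james hS.refl (fun m => (H (m + 1)).e (r m)) u (C := 1) (C' := 1) (b := -1 / 4)
    (fun m => ((s (m + 1)).2.1.cand _ (hr m).2).he) (fun k => hv2 _ _ _) hr' fun k => ?_
  · linarith
  · filter_upwards [hyper_le (eventually_ge_atTop k)] with m hm
    have h1 := (a5 m _ (hr m).1 (hr m).2).2 (u k)
      (mV (Nat.succ_le_succ hm) (mem_insert_self _ _))
    linarith [(abs_le.1 h1).1]

end Vale.Agent.P079
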