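import Vale.Agent.P079.Stage

namespace Vale.Agent.P079

open Filter Topology Finset Function

variable {X : Type*} [NormedAddCommGroup X] [NormedSpace ℝ X]

def Sp (w : X) (A : Finset X) : Submodule ℝ X := Submodule.span ℝ ((fun a => a - w) '' (A : Set X))

theorem sub_mem_Sp {w : X} {A : Finset X} {a b : X} (ha : a ∈ A) (hb : b ∈ A) : a - b ∈ Sp w A := by
  have := (Sp w A).sub_mem (Submodule.subset_span ⟨a, ha, rfl⟩) (Submodule.subset_span ⟨b, hb, rfl⟩)
  simpa using this

variable {K : Set X} {w : X} {x : ℕ → X} {k : ℕ} {H : St X}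

/-- One level of averaged derivatives. -/
theorem level (hB : Base K w) (hV : Valid K w x k H) {p : X} (hp : p ∈ K)
    (hp1 : ∀ r < H.R, ‖H.S r p - p‖ ≤ tau H.R) {j : ℕ} (hj : j < k) (A : Finset X)
    (hA : ∀ a ∈ A, a ∈ K) :
    ∃ (A' : Finset X) (B : Fin H.R → X →ₗ[ℝ] X), (∀ a ∈ A', a ∈ K) ∧ p ∈ A' ∧ w ∈ A' ∧
      (∀ r < H.R, H.q r ∈ A' ∧ H.Y r j p ∈ A') ∧
      (∀ r, ∀ v ∈ Sp w A, ‖B r v‖ ≤ ‖v‖ ∧ B r v ∈ Sp w A') ∧
      (∀ r, B r (p - w) ∈ Sp w A') ∧
      (∀ r : Fin H.R, H.st r = j → ‖B r (p - w) - (p - H.q r)‖ ≤ 11 * tau (j + 1)) ∧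
      ∀ r < H.R, j < H.st r → ∃ a ∈ Sp w A', ‖a‖ ≤ 1 - tau r + 4 * tau (r + 1) ∧
        tau r • ∑ s : Fin H.R, H.lam j s • B s (H.q r - H.Y r (j + 1) p)
          = H.q r - H.Y r j p - a := by
  classical
  have hL := hV.lev j hj
  have hSb := (hV.fx hB hj).1
  have hS : ∀ r < H.R, NE K (H.S r) := fun r hr => (hV.cand r hr).hS.1
  set κ : ℝ := tau H.R / (A.card + 1) with hκ
  have hκ0 : 0 < κ := div_pos (tau_pos _) (by positivity)
  have hκ1 : A.card * κ ≤ tau H.R := by
    rw [hκ, ← mul_div_assoc, div_le_iff₀ (by positivity)]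
    nlinarith [tau_pos H.R]
  let wt : ℕ → ℝ := fun i => if i < H.R + 1 then wtA H j i else κ
  let lo : ℕ → X := fun i => if i < H.R + 1 then loA w H j p i else w
  let up : ℕ → X := fun i => if i < H.R + 1 then upA H p i else A.toList.getD (i - (H.R + 1)) w
  let n := H.R + 1 + A.card
  have htR : tau H.R ≤ tau (j + 1) := tau_anti (hj.trans_le hV.le)
  have hsum : ∀ a ≤ H.R + 1, ∑ i ∈ Ico a n, wt i ≤ ∑ i ∈ Ico a (H.R + 1), wtA H j i + tau H.R := by
    intro a ha
    rw [← sum_Ico_consecutive wt ha (Nat.le_add_right _ A.card)]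
    refine add_le_add (le_of_eq (sum_congr rfl fun i hi => if_pos (mem_Ico.1 hi).2)) ?_
    rw [sum_congr rfl fun i hi => if_neg (not_lt.2 (mem_Ico.1 hi).1)]
    simpa using hκ1
  have hArr : Arr K n wt lo up := by
    refine ⟨fun i _ => ?_, ?_⟩
    · simp only [wt, lo, up]
      split_ifs with h
      · exact hV.arr hB j hp i h
      · refine ⟨hκ0.le, hB.hw, ?_⟩
        rw [List.getD_eq_getElem?_getD]
        rcases h' : A.toList[i - (H.R + 1)]? with _ | a
        · exact hB.hw
        · exact hA a (mem_toList.1 (List.mem_of_getElem? h'))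
    · have := hsum 0 (Nat.zero_le _)
      rw [← range_eq_Ico, ← range_eq_Ico] at this
      linarith [hV.wsum j]
  choose B hB1 hB2 using fun r : Fin H.R => face_deriv hB hArr (hS r r.2)
  let A' : Finset X := {p, w} ∪ (range H.R).image H.q ∪ (range H.R).image (fun r => H.Y r j p) ∪
    (range H.R ×ˢ range n).image (fun ri => face w n wt lo up (H.S ri.1) ri.2 0) ∪
    (range H.R ×ˢ range n).image fun ri => face w n wt lo up (H.S ri.1) ri.2 1
  have m0 : ∀ r < H.R, ∀ i < n, face w n wt lo up (H.S r) i 0 ∈ A' := fun r hr i hi =>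
    mem_union_left _ (mem_union_right _ (mem_image.2 ⟨(r, i), by simp [hr, hi], rfl⟩))
  have m1 : ∀ r < H.R, ∀ i < n, face w n wt lo up (H.S r) i 1 ∈ A' := fun r hr i hi =>
    mem_union_right _ (mem_image.2 ⟨(r, i), by simp [hr, hi], rfl⟩)
  have mp : p ∈ A' := by simp [A']
  have mw : w ∈ A' := by simp [A']
  have mq : ∀ r < H.R, H.q r ∈ A' ∧ H.Y r j p ∈ A' := fun r hr =>
    ⟨mem_union_left _ (mem_union_left _ (mem_union_left _ (mem_union_right _
      (mem_image_of_mem _ (mem_range.2 hr))))),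
      mem_union_left _ (mem_union_left _ (mem_union_right _
        (mem_image_of_mem (fun r => H.Y r j p) (mem_range.2 hr))))⟩
  set D := Submodule.span ℝ ((fun i => wt i • (up i - lo i)) '' Set.Iio n) with hD
  have hD1 : ∀ r, ∀ v ∈ D, B r v ∈ Sp w A' := by
    intro r v hv
    have : D ≤ (Sp w A').comap (B r) := by
      rw [hD, Submodule.span_le]
      rintro _ ⟨i, hi, rfl⟩
      change B r _ ∈ Sp w A'
      rw [hB1 r i hi]
      exact sub_mem_Sp (m1 r r.2 i hi) (m0 r r.2 i hi)
    exact this hv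
  have hD2 : ∀ i < n, wt i ≠ 0 → up i - lo i ∈ D := by
    intro i hi h
    have := D.smul_mem (wt i)⁻¹ (Submodule.subset_span ⟨i, hi, rfl⟩)
    simpa [smul_smul, inv_mul_cancel₀ h] using this
  have hD3 : Sp w A ≤ D := by
    rw [Sp, Submodule.span_le]
    rintro _ ⟨a, ha, rfl⟩
    obtain ⟨i, hi, hia⟩ := List.getElem_of_mem (mem_toList.2 ha)
    have h1 : ¬ (H.R + 1 + i < H.R + 1) := by omega
    have h2 := hD2 (H.R + 1 + i) (by simpa [n] using hi) (by simp only [wt, if_neg h1]; exact hκ0.ne')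
    simp only [up, lo, if_neg h1, Nat.add_sub_cancel_left, List.getD_eq_getElem _ _ hi, hia] at h2
    exact h2
  have hn0 : 0 < n := by simp [n]
  have hw0 : wt 0 = 1 - 3 * tau (j + 1) := by simp [wt, wtA]
  have hlo0 : lo 0 = w := by simp [lo, loA]
  have hup0 : up 0 = p := by simp [up, upA]
  have hu : p - w ∈ D := by
    have := hD2 0 hn0 (by
      rw [hw0]
      linarith [tau_succ_le j, tau_le_one j, tau_pos (j + 1)])
    rwa [hlo0, hup0] at this
  refine ⟨A', B, ?_, mp, mw, mq, fun r v hv => ⟨hB2 r v (hD3 hv), hD1 r v (hD3 hv)⟩,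
    fun r => hD1 r _ hu, fun r hr => ?_, fun r hr hjr => ?_⟩
  · intro a ha
    simp only [A', mem_union, mem_insert, mem_singleton, mem_image, mem_range, mem_product] at ha
    rcases ha with ((((h | h) | ⟨r, hr, rfl⟩) | ⟨r, hr, rfl⟩) | ⟨r, hr, rfl⟩) | ⟨r, hr, rfl⟩
    · exact h ▸ hp
    · exact h ▸ hB.hw
    · exact (hV.cand r hr).hq
    · exact (hV.cand r hr).hY j p hp
    · exact face_mem hB hArr (hS _ hr.1) _ le_rfl zero_le_one
    · exact face_mem hB hArr (hS _ hr.1) _ zero_le_one le_rfl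
  · have h1 := hB1 r 0 hn0
    have h2 := face_dist hB hArr (hS r r.2) hn0 zero_le_one le_rfl
    have h3 := face_dist hB hArr (hS r r.2) hn0 le_rfl zero_le_one
    simp only [hw0, hlo0, hup0, one_smul, zero_smul, add_zero, add_sub_cancel, map_smul] at h1 h2 h3
    have h4 := (hB2 r _ hu).trans (hB.diam p hp w hB.hw)
    have h5 := hp1 r r.2
    have h6 := (hV.cand r r.2).hSw
    have h7 : tau (r + 1) ≤ tau (j + 1) := tau_anti (by have := (hV.cand r r.2).st1; omega)
    have e : B r (p - w) - (p - H.q r) = (3 * tau (j + 1)) • B r (p - w)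
        + ((face w n wt lo up (H.S r) 0 1 - H.S r p) - (face w n wt lo up (H.S r) 0 0 - H.S r w))
        + ((H.S r p - p) - (H.S r w - H.q r)) := by
      have : B r (p - w) = (3 * tau (j + 1)) • B r (p - w)
          + (face w n wt lo up (H.S r) 0 1 - face w n wt lo up (H.S r) 0 0) := by
        rw [← h1, ← add_smul]
        simp
      rw [sub_eq_iff_eq_add]
      refine this.trans ?_
      abel
    rw [e]
    have h8 : ‖(3 * tau (j + 1)) • B r (p - w)‖ ≤ 3 * tau (j + 1) := by
      have := tau_pos (j + 1)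
      rw [norm_smul_of_nonneg (by positivity)]
      exact mul_le_of_le_one_right (by positivity) h4
    refine (norm_add₃_le).trans ?_
    linarith [norm_sub_le (face w n wt lo up (H.S r) 0 1 - H.S r p)
      (face w n wt lo up (H.S r) 0 0 - H.S r w), norm_sub_le (H.S r p - p) (H.S r w - H.q r)]
  · have hc := hV.cand r hr
    have hi : r + 1 < n := by simp only [n]; omega
    have hi' : r + 1 < H.R + 1 := by omega
    have hw1 : wt (r + 1) = tau r := by simp [wt, wtA, hr, hjr]
    have hlo1 : lo (r + 1) = H.Y r (j + 1) p := by simp [lo, loA, hr]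
    have hup1 : up (r + 1) = H.q r := by simp [up, upA, hr]
    have h1 : tau r • ∑ s : Fin H.R, H.lam j s • B s (H.q r - H.Y r (j + 1) p)
        = face w n wt lo up (H.Sb j) (r + 1) 1 - face w n wt lo up (H.Sb j) (r + 1) 0 := by
      rw [face_sum hB hArr hS hSb hL.hSb _ zero_le_one le_rfl,
        face_sum hB hArr hS hSb hL.hSb _ le_rfl zero_le_one, ← sum_sub_distrib, smul_sum,
        ← Fin.sum_univ_eq_sum_range fun s => H.lam j s • face w n wt lo up (H.S s) (r + 1) 1
          - H.lam j s • face w n wt lo up (H.S s) (r + 1) 0]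
      refine sum_congr rfl fun s _ => ?_
      rw [← smul_sub, ← hB1 s _ hi, hw1, hlo1, hup1, map_smul, smul_comm]
    have h2 := face_dist hB hArr hSb hi zero_le_one le_rfl
    simp only [hw1, hup1, one_smul, add_sub_cancel] at h2
    have h3 := face_low hB hArr hSb hi
    have h4 : AV (r + 1) (fun σ => H.Sb j (pt w (r + 1) wt lo up σ + wt (r + 1) • (lo (r + 1) - w)))
        = H.Y r j p := by
      rw [hc.hY1 j hjr, Yeq, hw1, hlo1]
      congr 1
      funext σ
      rw [pt_congr (wt' := wtA H j) (lo' := loA w H j p) (up' := upA H p) (σ' := σ) fun i hi => by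
        have : i < H.R + 1 := by omega
        simp only [wt, lo, up, if_pos this, and_self]]
    rw [h4] at h3
    have h5 : ∑ i ∈ Ico (r + 1 + 1) (H.R + 1), wtA H j i ≤ 2 * tau (r + 1) := by
      rw [← sum_Ico_add' (wtA H j) (r + 1) H.R 1]
      exact (sum_le_sum fun i _ => wtA_le j i).trans (tau_sum _ _)
    have h6 := hsum (r + 1 + 1) (by omega)
    have h7 : tau H.R ≤ tau (r + 1) := tau_anti hr
    have h8 := hc.fix j hjr
    have mf : ∀ c, (∀ s < H.R, face w n wt lo up (H.S s) (r + 1) c ∈ A') → 0 ≤ c → c ≤ 1 →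
        face w n wt lo up (H.Sb j) (r + 1) c - w ∈ Sp w A' := by
      intro c hc h0 h1
      have e : face w n wt lo up (H.Sb j) (r + 1) c - w
          = ∑ s ∈ range H.R, H.lam j s • (face w n wt lo up (H.S s) (r + 1) c - w) := by
        simp only [smul_sub, sum_sub_distrib, ← sum_smul, hL.sum, one_smul,
          face_sum hB hArr hS hSb hL.hSb _ h0 h1]
      rw [e]
      exact Submodule.sum_mem _ fun s hs =>
        Submodule.smul_mem _ _ (sub_mem_Sp (hc s (mem_range.1 hs)) mw)
    refine ⟨(H.q r - face w n wt lo up (H.Sb j) (r + 1) 1)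
      + (face w n wt lo up (H.Sb j) (r + 1) 0 - H.Y r j p), ?_, ?_, ?_⟩
    · have := (Sp w A').add_mem ((Sp w A').sub_mem (sub_mem_Sp (mq r hr).1 (mq r hr).2)
        (mf 1 (fun s hs => m1 s hs _ hi) zero_le_one le_rfl))
        (mf 0 (fun s hs => m0 s hs _ hi) le_rfl zero_le_one)
      convert this using 1
      abel
    · refine (norm_add_le _ _).trans ?_
      have h9 := norm_sub_le_norm_sub_add_norm_sub (face w n wt lo up (H.Sb j) (r + 1) 1)
        (H.Sb j (H.q r)) (H.q r)
      rw [norm_sub_rev (H.q r)]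
      linarith
    · rw [h1]
      abel

end Vale.Agent.P079
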