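import Vale.Agent.P079.Final

namespace Vale.Agent.P079

open Filter Topology Function Set

variable {X : Type*} [NormedAddCommGroup X] [NormedSpace ℝ X]

def Inv (T : X → X) (L : Set X) : Prop :=
  L.Nonempty ∧ IsClosed L ∧ Convex ℝ L ∧ ∀ a ∈ L, T a ∈ L

theorem exists_minimal (hX : Refl X) {T : X → X} {C : Set X} (hC : Inv T C)
    (hb : Bornology.IsBounded C) :
    ∃ K ⊆ C, Inv T K ∧ ∀ L ⊆ K, Inv T L → K ⊆ L := by
  classical
  obtain ⟨K, h1, h2⟩ := zorn_superset_nonempty {L | L ⊆ C ∧ Inv T L} (fun c hc hch hne => by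
    refine ⟨⋂₀ c, ⟨?_, ?_, isClosed_sInter fun L hL => (hc hL).2.2.1,
      convex_sInter fun L hL => (hc hL).2.2.2.1, fun a ha L hL => (hc hL).2.2.2.2 a (ha L hL)⟩,
      fun s hs => sInter_subset_of_mem hs⟩
    · obtain ⟨L, hL⟩ := hne
      exact (sInter_subset_of_mem hL).trans (hc hL).1
    · have : Nonempty c := hne.to_subtype
      have hF : (⨅ L : c, 𝓟 (L : Set X)).NeBot := by
        refine iInf_neBot_of_directed' ?_ fun L => principal_neBot_iff.2 (hc L.2).2.1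
        intro L L'
        rcases hch.total L.2 L'.2 with h | h
        · exact ⟨L, le_rfl, principal_mono.2 h⟩
        · exact ⟨L', principal_mono.2 h, le_rfl⟩
      obtain ⟨B, hB⟩ := hb.exists_norm_le
      obtain ⟨v, hv⟩ := exists_WL hX (Ultrafilter.of (⨅ L : c, 𝓟 (L : Set X)))
        (fun y => if y ∈ C then y else 0) (max B 0) fun y => by
          split_ifs with h
          · exact (hB y h).trans (le_max_left _ _)
          · simp
      refine ⟨v, fun L hL => hv.mem (hc hL).2.2.2.1 (hc hL).2.2.1 ?_⟩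
      have : L ∈ (⨅ L : c, 𝓟 (L : Set X)) := mem_iInf_of_mem ⟨L, hL⟩ (mem_principal_self _)
      filter_upwards [Ultrafilter.of_le _ this] with y hy
      rwa [if_pos ((hc hL).1 hy)]) C ⟨Subset.rfl, hC⟩
  exact ⟨K, h1, h2.1.2, fun L hL hL' => h2.2 ⟨hL.trans h1, hL'⟩ hL⟩

theorem exists_afp {T : X → X} {K : Set X} (hK : Inv T K) (hT : NE K T)
    (hd : ∀ a ∈ K, ∀ b ∈ K, ‖a - b‖ ≤ 1) {ε : ℝ} (hε : 0 < ε) (hε1 : ε < 1) :
    ∃ y ∈ K, ‖T y - y‖ ≤ 2 * ε := by
  obtain ⟨y0, hy0⟩ := hK.1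
  let f : X → X := fun z => y0 + (1 - ε) • (T z - y0)
  have hf : ∀ z ∈ K, f z ∈ K := fun z hz =>
    hK.2.2.1.add_smul_sub_mem hy0 (hT.1 z hz) ⟨by linarith, by linarith⟩
  have h1 : ∀ n, f^[n] y0 ∈ K := by
    intro n
    induction n with
    | zero => exact hy0
    | succ n ih =>
      rw [iterate_succ_apply']
      exact hf _ ih
  have h2 : ∀ n, ‖f (f^[n] y0) - f^[n] y0‖ ≤ (1 - ε) ^ n := by
    intro n
    induction n with
    | zero => simpa using hd _ (hf _ hy0) _ hy0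
    | succ n ih =>
      rw [iterate_succ_apply', pow_succ']
      have e : f (f (f^[n] y0)) - f (f^[n] y0) = (1 - ε) • (T (f (f^[n] y0)) - T (f^[n] y0)) := by
        simp only [f, smul_sub]
        abel
      rw [e, norm_smul_of_nonneg (by linarith)]
      exact mul_le_mul_of_nonneg_left ((hT.2 _ (hf _ (h1 n)) _ (h1 n)).trans ih) (by linarith)
  obtain ⟨n, hn⟩ := exists_pow_lt_of_lt_one hε (show 1 - ε < 1 by linarith)
  refine ⟨_, h1 n, ?_⟩
  have e : T (f^[n] y0) - f (f^[n] y0) = ε • (T (f^[n] y0) - y0) := by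
    simp only [f, sub_smul, one_smul]
    abel
  have h3 : ‖T (f^[n] y0) - f (f^[n] y0)‖ ≤ ε := by
    rw [e, norm_smul_of_nonneg hε.le]
    exact mul_le_of_le_one_right hε.le (hd _ (hT.1 _ (h1 n)) _ hy0)
  linarith [norm_sub_le_norm_sub_add_norm_sub (T (f^[n] y0)) (f (f^[n] y0)) (f^[n] y0), h2 n]

theorem minimal_false (hX : Refl X) {T : X → X} {K : Set X} (hK : Inv T K) (hT : NE K T)
    (hmin : ∀ L ⊆ K, Inv T L → K ⊆ L) (hd : ∀ a ∈ K, ∀ b ∈ K, ‖a - b‖ ≤ 1)
    (hd' : ∀ r, (∀ a ∈ K, ∀ b ∈ K, ‖a - b‖ ≤ r) → 1 ≤ r) : False := by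
  obtain ⟨y0, hy0⟩ := hK.1
  choose x hx hx' using fun n : ℕ => exists_afp hK hT hd (ε := 1 / ((n : ℝ) + 2)) (by positivity)
    (by rw [div_lt_one (by positivity)]; linarith [Nat.cast_nonneg (α := ℝ) n])
  have hafp : Tendsto (fun n => ‖T (x n) - x n‖) (hyperfilter ℕ) (𝓝 0) := by
    refine (squeeze_zero (fun _ => norm_nonneg _) hx' ?_).mono_left hyper_le
    have := (tendsto_one_div_add_atTop_nhds_zero_nat (𝕜 := ℝ)).comp (tendsto_add_atTop_nat 1)
    have h2 := this.const_mul 2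
    simp only [mul_zero] at h2
    refine h2.congr fun n => ?_
    simp only [comp_apply]
    push_cast
    ring
  obtain ⟨w, hw⟩ := exists_WL hX (hyperfilter ℕ) x (1 + ‖y0‖) fun n => by
    linarith [norm_sub_norm_le (x n) y0, hd _ (hx n) _ hy0]
  have hwK : w ∈ K := hw.mem hK.2.2.1 hK.2.1 (Eventually.of_forall hx)
  have hφ : ∀ y : X, ∃ c, Tendsto (fun n => ‖x n - y‖) (hyperfilter ℕ) (𝓝 c) := by
    intro y
    obtain ⟨c, -, hc⟩ := (isCompact_Icc (a := (0 : ℝ)) (b := 1 + ‖y0 - y‖)).ultrafilter_le_nhds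
      ((hyperfilter ℕ).map fun n => ‖x n - y‖) (by
        rw [Ultrafilter.coe_map, le_principal_iff, mem_map]
        exact Eventually.of_forall fun n => ⟨norm_nonneg _, by
          linarith [norm_sub_le_norm_sub_add_norm_sub (x n) y0 y, hd _ (hx n) _ hy0]⟩)
    exact ⟨c, hc⟩
  choose φ hφ using hφ
  have hlip : LipschitzWith 1 φ := LipschitzWith.of_le_add fun y y' =>
    le_of_tendsto_of_tendsto' (hφ y) ((hφ y').add_const (dist y y')) fun n => by
      rw [dist_comm, dist_eq_norm]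
      exact norm_sub_le_norm_sub_add_norm_sub _ _ _
  have hconst : ∀ a ∈ K, ∀ b ∈ K, φ b ≤ φ a := by
    intro a ha b hb
    refine (hmin {y ∈ K | φ y ≤ φ a} (sep_subset _ _) ⟨⟨a, ha, le_rfl⟩,
      hK.2.1.inter (isClosed_le hlip.continuous continuous_const), ?_, ?_⟩ hb).2
    · rintro y ⟨hy, hy'⟩ z ⟨hz, hz'⟩ s t hs ht hst
      refine ⟨hK.2.2.1 hy hz hs ht hst, ?_⟩
      have := le_of_tendsto_of_tendsto' (hφ (s • y + t • z))
        (((hφ y).const_mul s).add ((hφ z).const_mul t)) fun n => by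
          have e : x n - (s • y + t • z) = s • (x n - y) + t • (x n - z) := by
            rw [smul_sub, smul_sub, sub_add_sub_comm, ← add_smul, hst, one_smul]
          rw [e, ← norm_smul_of_nonneg hs, ← norm_smul_of_nonneg ht]
          exact norm_add_le _ _
      have e : φ a = s * φ a + t * φ a := by rw [← add_mul, hst, one_mul]
      linarith [mul_le_mul_of_nonneg_left hy' hs, mul_le_mul_of_nonneg_left hz' ht]
    · rintro y ⟨hy, hy'⟩
      refine ⟨hT.1 y hy, le_trans ?_ hy'⟩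
      have := le_of_tendsto_of_tendsto' (hφ (T y)) (hafp.add (hφ y)) fun n => by
        have := norm_sub_le_norm_sub_add_norm_sub (x n) (T (x n)) (T y)
        rw [norm_sub_rev (x n) (T (x n))] at this
        linarith [hT.2 _ (hx n) _ hy]
      simpa using this
  have hr : 1 ≤ φ w := by
    refine hd' _ fun a ha => (hmin {z ∈ K | ∀ y ∈ K, ‖z - y‖ ≤ φ w} (sep_subset _ _)
      ⟨⟨w, hwK, fun y hy => ?_⟩, ?_, ?_, ?_⟩ ha).2
    · refine le_trans ((hw.sub (WL.const y)).norm_le fun ε hε => ?_) (hconst w hwK y hy)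
      exact (hφ y).eventually (ge_mem_nhds (lt_add_of_pos_right _ hε))
    · refine hK.2.1.inter ?_
      have : IsClosed (⋂ y ∈ K, Metric.closedBall y (φ w)) :=
        isClosed_biInter fun y _ => Metric.isClosed_closedBall
      have e : {z | ∀ y ∈ K, ‖z - y‖ ≤ φ w} = ⋂ y ∈ K, Metric.closedBall y (φ w) := by
        ext z
        simp only [mem_iInter, mem_closedBall_iff_norm]
        rfl
      rw [← e] at this
      exact this
    · rintro y ⟨hy, hy'⟩ z ⟨hz, hz'⟩ s t hs ht hst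
      refine ⟨hK.2.2.1 hy hz hs ht hst, fun u hu => ?_⟩
      have := convex_closedBall u (φ w) (mem_closedBall_iff_norm.2 (hy' u hu))
        (mem_closedBall_iff_norm.2 (hz' u hu)) hs ht hst
      exact mem_closedBall_iff_norm.1 this
    · rintro z ⟨hz, hz'⟩
      refine ⟨hT.1 z hz, fun y hy => ?_⟩
      have key : ∀ u ∈ K, T u ∈ K ∩ Metric.closedBall (T z) (φ w) := fun u hu =>
        ⟨hT.1 u hu, mem_closedBall_iff_norm'.2 ((hT.2 z hz u hu).trans (hz' u hu))⟩
      exact mem_closedBall_iff_norm'.1 (hmin (K ∩ Metric.closedBall (T z) (φ w)) inter_subset_left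
        ⟨⟨_, key z hz⟩, hK.2.1.inter Metric.isClosed_closedBall,
          hK.2.2.1.inter (convex_closedBall _ _), fun u hu => key u hu.1⟩ hy).2
  refine Setup.false (K := K) (w := w) (x := x)
    ⟨⟨hX, hK.2.2.1, hK.2.1, hwK, hd⟩, hx, hw, fun y hy => ?_, fun q hq η hη => ?_⟩
  · have : φ y = 1 := le_antisymm (le_of_tendsto' (hφ y) fun n => hd _ (hx n) _ hy)
      (hr.trans (hconst y hy w hwK))
    exact this ▸ hφ y
  · have hsub : {z | ∃ S, Fx K x S ∧ z = S w} ⊆ K := by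
      rintro _ ⟨S, hS, rfl⟩
      exact hS.1.1 w hwK
    have hcl := closure_minimal hsub hK.2.1
    have := hmin (closure {z | ∃ S, Fx K x S ∧ z = S w}) hcl ⟨⟨w, subset_closure ⟨id,
      ⟨⟨fun _ h => h, fun _ _ _ _ => le_rfl⟩, by simp⟩, rfl⟩⟩, isClosed_closure,
      Convex.closure ?_, ?_⟩ hq
    · obtain ⟨_, ⟨S, hS, rfl⟩, h⟩ := Metric.mem_closure_iff.1 this η hη
      exact ⟨S, hS, by rw [← dist_eq_norm, dist_comm]; exact h.le⟩
    · rintro _ ⟨S, hS, rfl⟩ _ ⟨S', hS', rfl⟩ s t hs ht hst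
      refine ⟨fun z => s • S z + t • S' z, ⟨⟨fun a ha => hK.2.2.1 (hS.1.1 a ha) (hS'.1.1 a ha)
        hs ht hst, fun a ha b hb => ?_⟩, ?_⟩, rfl⟩
      · have e : s • S a + t • S' a - (s • S b + t • S' b)
            = s • (S a - S b) + t • (S' a - S' b) := by
          simp only [smul_sub]
          abel
        rw [e]
        refine (norm_add_le _ _).trans ?_
        rw [norm_smul_of_nonneg hs, norm_smul_of_nonneg ht]
        have e2 : ‖a - b‖ = s * ‖a - b‖ + t * ‖a - b‖ := by rw [← add_mul, hst, one_mul]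
        linarith [mul_le_mul_of_nonneg_left (hS.1.2 a ha b hb) hs,
          mul_le_mul_of_nonneg_left (hS'.1.2 a ha b hb) ht]
      · have h1 := (hS.2.const_mul s).add (hS'.2.const_mul t)
        simp only [mul_zero, add_zero] at h1
        refine squeeze_zero (fun _ => norm_nonneg _) (fun n => ?_) h1
        have e : s • S (x n) + t • S' (x n) - x n = s • (S (x n) - x n) + t • (S' (x n) - x n) := by
          rw [smul_sub, smul_sub, sub_add_sub_comm, ← add_smul, hst, one_smul]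
        rw [e, ← norm_smul_of_nonneg hs, ← norm_smul_of_nonneg ht]
        exact norm_add_le _ _
    · intro z hz
      refine Metric.mem_closure_iff.2 fun ε hε => ?_
      obtain ⟨_, ⟨S, hS, rfl⟩, h⟩ := Metric.mem_closure_iff.1 hz ε hε
      refine ⟨T (S w), ⟨fun z => T (S z), ⟨⟨fun a ha => hT.1 _ (hS.1.1 a ha), fun a ha b hb =>
        (hT.2 _ (hS.1.1 a ha) _ (hS.1.1 b hb)).trans (hS.1.2 a ha b hb)⟩, ?_⟩, rfl⟩, ?_⟩
      · have h1 := hS.2.add hafp
        simp only [add_zero] at h1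
        refine squeeze_zero (fun _ => norm_nonneg _) (fun n => ?_) h1
        linarith [norm_sub_le_norm_sub_add_norm_sub (T (S (x n))) (T (x n)) (x n),
          hT.2 _ (hS.1.1 _ (hx n)) _ (hx n)]
      · rw [dist_eq_norm] at h ⊢
        exact (hT.2 _ (hcl hz) _ (hS.1.1 w hwK)).trans_lt h

theorem fixed_point (hX : Refl X) {T : X → X} {C : Set X} (hC : Inv T C) (hT : NE C T)
    (hb : Bornology.IsBounded C) : ∃ a ∈ C, T a = a := by
  by_contra hcon
  push Not at hcon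
  obtain ⟨K, hKC, hK, hmin⟩ := exists_minimal hX hC hb
  have hbK := hb.subset hKC
  set D := Metric.diam K with hD
  have hd : ∀ a ∈ K, ∀ b ∈ K, ‖a - b‖ ≤ D := fun a ha b hb => by
    rw [← dist_eq_norm]
    exact Metric.dist_le_diam_of_mem hbK ha hb
  obtain ⟨y0, hy0⟩ := hK.1
  have hD0 : 0 < D :=
    (norm_pos_iff.2 (sub_ne_zero.2 (hcon y0 (hKC hy0)))).trans_le (hd _ (hK.2.2.2 y0 hy0) _ hy0)
  have pre : ∀ (c : ℝ) (L : Set X), IsClosed L → Convex ℝ L →
      IsClosed ((fun a : X => c • a) ⁻¹' L) ∧ Convex ℝ ((fun a : X => c • a) ⁻¹' L) :=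
    fun c L h1 h2 => ⟨h1.preimage (by fun_prop), h2.smul_preimage c⟩
  have i1 : ∀ a : X, D • D⁻¹ • a = a := fun a => smul_inv_smul₀ hD0.ne' a
  have i2 : ∀ a : X, D⁻¹ • D • a = a := fun a => inv_smul_smul₀ hD0.ne' a
  have n1 : ∀ a b : X, ‖D • a - D • b‖ = D * ‖a - b‖ := fun a b => by
    rw [← smul_sub, norm_smul_of_nonneg hD0.le]
  refine minimal_false hX (T := fun a => D⁻¹ • T (D • a)) (K := (fun a : X => D • a) ⁻¹' K)
    ⟨⟨D⁻¹ • y0, by simpa [i1] using hy0⟩, (pre D K hK.2.1 hK.2.2.1).1, (pre D K hK.2.1 hK.2.2.1).2,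
      fun a ha => by simpa [i1] using hK.2.2.2 _ ha⟩
    ⟨fun a ha => by simpa [i1] using hK.2.2.2 _ ha, fun a ha b hb => ?_⟩
    (fun L hL hL' a ha => ?_) (fun a ha b hb => ?_) fun r hr => ?_
  · have h1 := hT.2 _ (hKC ha) _ (hKC hb)
    refine le_of_mul_le_mul_left ?_ hD0
    rwa [← n1, i1, i1, ← n1]
  · obtain ⟨z, hz⟩ := hL'.1
    have := hmin ((fun a : X => D⁻¹ • a) ⁻¹' L) (fun b hb => by simpa [i1] using hL hb)
      ⟨⟨D • z, by simpa [i2] using hz⟩, (pre _ L hL'.2.1 hL'.2.2.1).1, (pre _ L hL'.2.1 hL'.2.2.1).2,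
        fun b hb => by simpa [i1] using hL'.2.2.2 _ hb⟩ ha
    simpa [i2] using this
  · refine le_of_mul_le_mul_left ?_ hD0
    rw [← n1, mul_one]
    exact hd _ ha _ hb
  · refine le_of_mul_le_mul_left ?_ hD0
    rw [mul_one]
    have h0 := hr (D⁻¹ • y0) (by simpa [i1] using hy0) (D⁻¹ • y0) (by simpa [i1] using hy0)
    refine Metric.diam_le_of_forall_dist_le (mul_nonneg hD0.le ((norm_nonneg _).trans h0))
      fun a ha b hb => ?_
    have h1 := hr (D⁻¹ • a) (by simpa [i1] using ha) (D⁻¹ • b) (by simpa [i1] using hb)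
    rw [dist_eq_norm, ← i1 a, ← i1 b, n1]
    exact mul_le_mul_of_nonneg_left h1 hD0.le

end Vale.Agent.P079
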