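import Vale.Agent.P079.Level

namespace Vale.Agent.P079

open Filter Topology Finset Function

variable {X : Type*} [NormedAddCommGroup X] [NormedSpace ℝ X]
variable {K : Set X} {w : X} {x : ℕ → X} {k : ℕ} {H : St X}

theorem Sp_le {A : Finset X} (hA : ∀ a ∈ A, a ∈ K) : Sp w A ≤ ZZ K w :=
  Submodule.span_mono (Set.image_mono hA)

theorem def_bound {j r : ℕ} (h : j ≤ r) :
    (4 * j + 1) * tau (r + 1) / tau r ^ j ≤ 1 / 20 * (1 / 2) ^ j := by
  have h1 := tau_key (j := j) (r := r) (by omega)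
  have h2 : (2 : ℝ) ^ j ≤ 2 ^ r := pow_le_pow_right₀ (by norm_num) h
  have h3 : (j : ℝ) ≤ r := by exact_mod_cast h
  have h4 := tau_pos (r + 1)
  have h5 : (0 : ℝ) < 2 ^ j := by positivity
  have h6 : (0 : ℝ) ≤ j := Nat.cast_nonneg j
  rw [div_le_iff₀ (pow_pos (tau_pos r) j), one_div_pow, mul_assoc, one_div_mul_eq_div,
    one_div_mul_eq_div, le_div_iff₀ (by norm_num), le_div_iff₀ h5]
  refine le_trans ?_ h1
  have h7 : (4 * j + 1) * 20 * (2 : ℝ) ^ j ≤ 100 * (r + 1) * 2 ^ r :=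
    mul_le_mul (by linarith) h2 h5.le (by positivity)
  nlinarith

theorem tau_bound (j : ℕ) : (12 * j + 11) * tau (j + 1) ≤ 12 / 100 * (1 / 2) ^ j := by
  have h1 := tau_key (j := 0) (r := j) (by omega)
  have h4 := tau_pos (j + 1)
  have h5 : (0 : ℝ) < 2 ^ j := by positivity
  rw [one_div_pow, mul_one_div, le_div_iff₀ h5]
  rw [pow_zero] at h1
  nlinarith [mul_pos h4 h5]

theorem claim (hB : Base K w) (hV : Valid K w x k H) {p : X} (hp : p ∈ K)
    (hp1 : ∀ r < H.R, ‖H.S r p - p‖ ≤ tau H.R)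
    (hp2 : ∀ r < H.R, 1 - tau (r + 1) ≤ H.e r (H.q r - H.Y r 0 p)) {j : ℕ} (hj : j ≤ k)
    (A : Finset X) (hA : ∀ a ∈ A, a ∈ K) :
    ∃ (Ω : Type) (_ : Fintype Ω) (π : Ω → ℝ) (P : Ω → X →ₗ[ℝ] X) (I : Ω → ℕ → ℕ),
      (∀ ω, 0 ≤ π ω) ∧ ∑ ω, π ω = 1 ∧
      (∀ ω, π ω ≠ 0 → ∀ m < j, I ω m < H.R ∧ H.st (I ω m) = m) ∧
      (∀ ω, ∀ v ∈ Sp w A, ‖P ω v‖ ≤ ‖v‖ ∧ P ω v ∈ ZZ K w) ∧
      (∀ r < H.R, j ≤ H.st r → 1 - (4 * j + 1) * tau (r + 1) / tau r ^ j
        ≤ ∑ ω, π ω * H.e r (P ω (H.q r - H.Y r j p))) ∧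
      j + ∑ ω, π ω * ∑ m ∈ range j, H.e (I ω m) (P ω (p - w)) ≤ (1 - (1 / 2) ^ j) / 2 := by
  induction j generalizing A with
  | zero =>
    refine ⟨Unit, inferInstance, fun _ => 1, fun _ => LinearMap.id, fun _ _ => 0,
      fun _ => zero_le_one, by simp, by simp, fun _ v hv => ⟨le_rfl, Sp_le hA hv⟩,
      fun r hr _ => ?_, by simp⟩
    simpa using hp2 r hr
  | succ j ih =>
    have hL := hV.lev j hj
    obtain ⟨A', B, hA', mp, mw, mq, b1, b2, b3, b4⟩ := level hB hV hp hp1 hj A hA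
    obtain ⟨Ω, _, π, P, I, c1, c2, c3, c4, c5, c6⟩ := ih (by omega) A' hA'
    have hl : ∑ s : Fin H.R, H.lam j s = 1 := by
      rw [Fin.sum_univ_eq_sum_range (H.lam j)]
      exact hL.sum
    -- the two linear functionals
    let Ψ : ℕ → X →ₗ[ℝ] ℝ := fun r => ∑ ω, π ω • ((H.e r).toLinearMap ∘ₗ P ω)
    have hΨ : ∀ r v, Ψ r v = ∑ ω, π ω * H.e r (P ω v) := fun r v => by
      simp [Ψ, LinearMap.sum_apply]
    have hΨb : ∀ r < H.R, ∀ v ∈ Sp w A', |Ψ r v| ≤ ‖v‖ := by
      intro r hr v hv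
      rw [hΨ]
      refine (abs_sum_le_sum_abs _ _).trans ?_
      have : ∑ ω, |π ω * H.e r (P ω v)| ≤ ∑ ω, π ω * ‖v‖ := sum_le_sum fun ω _ => by
        rw [abs_mul, abs_of_nonneg (c1 ω)]
        exact mul_le_mul_of_nonneg_left ((dual_le (hV.cand r hr).he _).trans (c4 ω v hv).1) (c1 ω)
      rwa [← sum_mul, c2, one_mul] at this
    let Λ : X →ₗ[ℝ] ℝ := ∑ ω, π ω • ∑ m ∈ range j, ((H.e (I ω m)).toLinearMap ∘ₗ P ω)
    have hΛ : ∀ v, Λ v = ∑ ω, π ω * ∑ m ∈ range j, H.e (I ω m) (P ω v) := fun v => by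
      simp [Λ, LinearMap.sum_apply]
    have hΛb : ∀ v ∈ Sp w A', Λ v ≤ j * ‖v‖ := by
      intro v hv
      rw [hΛ]
      have : ∑ ω, π ω * ∑ m ∈ range j, H.e (I ω m) (P ω v) ≤ ∑ ω, π ω * (j * ‖v‖) :=
        sum_le_sum fun ω _ => by
          by_cases h0 : π ω = 0
          · simp [h0]
          refine mul_le_mul_of_nonneg_left ?_ (c1 ω)
          have := sum_le_card_nsmul (range j) (fun m => H.e (I ω m) (P ω v)) ‖v‖ fun m hm =>
            (le_abs_self _).trans ((dual_le (hV.cand _ (c3 ω h0 m (mem_range.1 hm)).1).he _).trans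
              (c4 ω v hv).1)
          simpa using this
      rwa [← sum_mul, c2, one_mul] at this
    refine ⟨Ω × Fin H.R, inferInstance, fun z => π z.1 * H.lam j z.2, fun z => P z.1 ∘ₗ B z.2,
      fun z m => if m = j then z.2 else I z.1 m, fun z => mul_nonneg (c1 _) (hL.nonneg _), ?_,
      fun z hz m hm => ?_, fun z v hv => ?_, fun r hr hjr => ?_, ?_⟩
    · simp only [Fintype.sum_prod_type, ← mul_sum, hl, mul_one, c2]
    · dsimp only
      split_ifs with h
      · rw [h]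
        exact hL.supp _ (right_ne_zero_of_mul hz)
      · exact c3 _ (left_ne_zero_of_mul hz) m (by omega)
    · exact ⟨(c4 _ _ (b1 _ v hv).2).1.trans (b1 _ v hv).1, (c4 _ _ (b1 _ v hv).2).2⟩
    · obtain ⟨a, ha, ha', e⟩ := b4 r hr hjr
      have e1 : ∑ z : Ω × Fin H.R, π z.1 * H.lam j z.2
          * H.e r ((P z.1 ∘ₗ B z.2) (H.q r - H.Y r (j + 1) p))
          = Ψ r (∑ s : Fin H.R, H.lam j s • B s (H.q r - H.Y r (j + 1) p)) := by
        rw [Fintype.sum_prod_type_right, map_sum]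
        refine sum_congr rfl fun s _ => ?_
        rw [map_smul, hΨ, smul_eq_mul, mul_sum]
        exact sum_congr rfl fun ω _ => by simp only [LinearMap.comp_apply]; ring
      have e2 := congrArg (Ψ r) e
      rw [map_smul, smul_eq_mul, map_sub (Ψ r) _ a, hΨ r (H.q r - _)] at e2
      have h1 := c5 r hr (by omega)
      have h2 := (le_abs_self _).trans ((hΨb r hr a ha).trans ha')
      rw [e1]
      have ht := tau_pos r
      have ht' := tau_pos (r + 1)
      refine le_of_mul_le_mul_left ?_ ht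
      have h3 : tau r * (1 - (4 * ((j + 1 : ℕ) : ℝ) + 1) * tau (r + 1) / tau r ^ (j + 1))
          = tau r - (4 * j + 1) * tau (r + 1) / tau r ^ j - 4 * tau (r + 1) / tau r ^ j := by
        push_cast
        field_simp
        ring
      have h4 : 4 * tau (r + 1) ≤ 4 * tau (r + 1) / tau r ^ j :=
        le_div_self (by positivity) (pow_pos ht j) (pow_le_one₀ ht.le (tau_le_one r))
      linarith
    · have e1 : ∑ z : Ω × Fin H.R, π z.1 * H.lam j z.2 * ∑ m ∈ range (j + 1),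
          H.e (if m = j then z.2 else I z.1 m) ((P z.1 ∘ₗ B z.2) (p - w))
          = Λ (∑ s : Fin H.R, H.lam j s • B s (p - w))
            + ∑ s : Fin H.R, H.lam j s * Ψ s (B s (p - w)) := by
        rw [Fintype.sum_prod_type_right, map_sum, ← sum_add_distrib]
        refine sum_congr rfl fun s _ => ?_
        rw [map_smul, hΛ, hΨ, smul_eq_mul, mul_sum, mul_sum, ← sum_add_distrib]
        refine sum_congr rfl fun ω _ => ?_
        rw [sum_range_succ, if_pos rfl, sum_congr rfl fun m hm => by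
          rw [if_neg (mem_range.1 hm).ne]]
        simp only [LinearMap.comp_apply]
        ring
      rw [e1]
      have hu := sub_mem_Sp (w := w) mp mw
      have h1 : ‖∑ s : Fin H.R, H.lam j s • B s (p - w) - (p - w)‖ ≤ 12 * tau (j + 1) := by
        have e2 : ∑ s : Fin H.R, H.lam j s • B s (p - w) - (p - w)
            = ∑ s : Fin H.R, H.lam j s • (B s (p - w) - (p - H.q s))
              - (∑ r ∈ range H.R, H.lam j r • H.q r - w) := by
          rw [← Fin.sum_univ_eq_sum_range fun r => H.lam j r • H.q r]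
          simp only [smul_sub (H.lam j _) (B _ (p - w)), smul_sub (H.lam j _) p, sum_sub_distrib,
            ← sum_smul, hl, one_smul]
          abel
        have h2 : ‖∑ s : Fin H.R, H.lam j s • (B s (p - w) - (p - H.q s))‖
            ≤ ∑ s : Fin H.R, H.lam j s * (11 * tau (j + 1)) :=
          (norm_sum_le _ _).trans (sum_le_sum fun s _ => by
            by_cases h0 : H.lam j s = 0
            · simp [h0]
            rw [norm_smul_of_nonneg (hL.nonneg _)]
            exact mul_le_mul_of_nonneg_left (b3 s (hL.supp _ h0).2) (hL.nonneg _))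
        rw [← sum_mul, hl, one_mul] at h2
        rw [e2]
        linarith [norm_sub_le (∑ s : Fin H.R, H.lam j s • (B s (p - w) - (p - H.q s)))
          (∑ r ∈ range H.R, H.lam j r • H.q r - w), hL.near]
      have h2 := hΛb _ ((Sp w A').sub_mem
        (Submodule.sum_mem _ (t := univ) fun (s : Fin H.R) _ =>
          Submodule.smul_mem _ (H.lam j s) (b2 s)) hu)
      rw [map_sub, hΛ (p - w)] at h2
      have h3 := mul_le_mul_of_nonneg_left h1 (Nat.cast_nonneg (α := ℝ) j)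
      have h4 : ∑ s : Fin H.R, H.lam j s * Ψ s (B s (p - w))
          ≤ ∑ s : Fin H.R, H.lam j s * (-1 + 1 / 20 * (1 / 2) ^ j + 11 * tau (j + 1)) :=
        sum_le_sum fun s _ => by
          by_cases h0 : H.lam j s = 0
          · simp [h0]
          refine mul_le_mul_of_nonneg_left ?_ (hL.nonneg _)
          have hs := (hL.supp _ h0).2
          have k1 := c5 s s.2 hs.ge
          have k2 := (hV.cand s s.2).hY0 p
          rw [hs] at k2
          rw [k2, ← hΨ] at k1
          have k3 := (le_abs_self _).trans ((hΨb s s.2 _ ((Sp w A').sub_mem (b2 s)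
            (sub_mem_Sp mp (mq s s.2).1))).trans (b3 s hs))
          have k4 := def_bound (j := j) (r := s) (hs ▸ (hV.cand s s.2).st1)
          rw [map_sub, ← neg_sub (H.q s) p, map_neg] at k3
          linarith
      rw [← sum_mul, hl, one_mul] at h4
      have h5 := tau_bound j
      have h6 : (0 : ℝ) < (1 / 2) ^ j := by positivity
      push_cast
      rw [pow_succ]
      linarith

theorem realize (hS : Setup K w x) (hV : Valid K w x k H) :
    ∃ v ∈ ZZ K w, ‖v‖ ≤ 1 ∧ ∀ m < k, ∃ r < H.R, H.st r = m ∧ H.e r v ≤ -1 / 2 := by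
  classical
  have hB := hS.toBase
  have e1 : ∀ᶠ n in (hyperfilter ℕ : Filter ℕ), ∀ r ∈ range H.R, ‖H.S r (x n) - x n‖ ≤ tau H.R :=
    (eventually_all_finset _).2 fun r hr =>
      (hV.cand r (mem_range.1 hr)).hS.2.eventually (ge_mem_nhds (tau_pos _))
  have e2 : ∀ᶠ n in (hyperfilter ℕ : Filter ℕ), ∀ r ∈ range H.R,
      1 - tau (r + 1) ≤ H.e r (H.q r - H.Y r 0 (x n)) :=
    (eventually_all_finset _).2 fun r hr => (hV.cand r (mem_range.1 hr)).tight
  obtain ⟨n, h1, h2⟩ := (e1.and e2).exists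
  obtain ⟨Ω, _, π, P, I, c1, c2, c3, c4, -, c6⟩ := claim hB hV (hS.hx n)
    (fun r hr => h1 r (mem_range.2 hr)) (fun r hr => h2 r (mem_range.2 hr)) le_rfl {x n, w}
    (by simp [hS.hx n, hS.hw])
  have hu : x n - w ∈ Sp w {x n, w} := sub_mem_Sp (by simp) (by simp)
  have hn : ∀ ω, ‖P ω (x n - w)‖ ≤ 1 := fun ω =>
    (c4 ω _ hu).1.trans (hS.diam _ (hS.hx n) _ hS.hw)
  by_contra hcon
  push Not at hcon
  have h3 : ∑ ω, π ω * (1 / 2) ≤ ∑ ω, π ω * (k + ∑ m ∈ range k, H.e (I ω m) (P ω (x n - w))) := by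
    refine sum_le_sum fun ω _ => ?_
    by_cases h0 : π ω = 0
    · simp [h0]
    refine mul_le_mul_of_nonneg_left ?_ (c1 ω)
    obtain ⟨m, hm, hm'⟩ := hcon _ (c4 ω _ hu).2 (hn ω)
    have k1 := hm' _ (c3 ω h0 m hm).1 (c3 ω h0 m hm).2
    have k2 := single_le_sum (f := fun m => 1 + H.e (I ω m) (P ω (x n - w))) (s := range k)
      (fun i hi => by
        have := (dual_le (hV.cand _ (c3 ω h0 i (mem_range.1 hi)).1).he (P ω (x n - w))).trans (hn ω)
        linarith [(abs_le.1 this).1]) (mem_range.2 hm)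
    rw [sum_add_distrib] at k2
    simp only [sum_const, card_range, nsmul_eq_mul, mul_one] at k2
    linarith
  simp only [mul_add, sum_add_distrib, ← sum_mul, c2, one_mul] at h3
  have h4 : (0 : ℝ) < (1 / 2) ^ k := by positivity
  linarith

end Vale.Agent.P079
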