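import Vale.Agent.P079.Extend

namespace Vale.Agent.P079

open Filter Topology Finset Function

variable {X : Type*} [NormedAddCommGroup X] [NormedSpace ℝ X]

theorem exists_sep {Q : Set X} {w : X} {δ : ℝ} (hδ : 0 < δ)
    (h : ∀ z ∈ convexHull ℝ Q, δ < ‖z - w‖) :
    ∃ f : StrongDual ℝ X, ‖f‖ ≤ 1 ∧ ∀ q ∈ Q, δ / 2 ≤ f (q - w) := by
  obtain ⟨f, u, h1, h2⟩ := geometric_hahn_banach_open (convex_ball w δ) Metric.isOpen_ball
    (convex_convexHull ℝ Q) (Set.disjoint_left.2 fun z hz hz' => by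
      have := h z hz'
      rw [mem_ball_iff_norm] at hz
      linarith)
  have h3 : 0 < u - f w := sub_pos.2 (h1 w (Metric.mem_ball_self hδ))
  refine ⟨(δ / 2 / (u - f w)) • f, ?_, fun q hq => ?_⟩
  · refine ContinuousLinearMap.opNorm_le_of_unit_norm zero_le_one fun y hy => ?_
    have k : ∀ y : X, ‖y‖ = 1 → δ / 2 * f y ≤ u - f w := by
      intro y hy
      have := h1 (w + (δ / 2) • y) (by
        rw [mem_ball_iff_norm, add_sub_cancel_left, norm_smul_of_nonneg (by positivity), hy]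
        linarith)
      rw [map_add, map_smul, smul_eq_mul] at this
      linarith
    have k1 := k y hy
    have k2 := k (-y) (by rwa [norm_neg])
    rw [map_neg] at k2
    rw [_root_.smul_apply, smul_eq_mul, Real.norm_eq_abs, div_mul_eq_mul_div, abs_div,
      abs_of_pos h3, div_le_one h3, abs_le]
    constructor <;> linarith
  · have h5 := h2 q (subset_convexHull ℝ Q hq)
    rw [_root_.smul_apply, smul_eq_mul, div_mul_eq_mul_div, le_div_iff₀ h3, map_sub]
    exact mul_le_mul_of_nonneg_left (by linarith) (by positivity)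

theorem mazur_game (hX : Refl X) {A : Type*} (a0 : A) (Q : A → Set X) (w : X)
    (hQ : ∀ a, ∀ q ∈ Q a, ‖q - w‖ ≤ 1)
    (step : ∀ (a : A) (Φ : Finset (StrongDual ℝ X)) (η : ℝ), 0 < η →
      ∃ a' q, q ∈ Q a' ∧ Q a ⊆ Q a' ∧ ∀ φ ∈ Φ, |φ (q - w)| ≤ η) {δ : ℝ} (hδ : 0 < δ) :
    ∃ a, ∃ z ∈ convexHull ℝ (Q a), ‖z - w‖ ≤ δ := by
  classical
  by_contra hcon
  push Not at hcon
  choose f hf1 hf2 using fun a => exists_sep hδ (hcon a)
  choose nx pq h1 h2 h3 using fun a Φ => step a Φ (δ / 4) (by positivity)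
  let s : ℕ → A × Finset (StrongDual ℝ X) := fun n => Nat.rec (a0, ∅)
    (fun _ p => (nx p.1 (insert (f p.1) p.2), insert (f p.1) p.2)) n
  have hs : ∀ n, s (n + 1) = (nx (s n).1 (insert (f (s n).1) (s n).2), insert (f (s n).1) (s n).2) :=
    fun n => rfl
  have m1 : Monotone fun n => Q (s n).1 := monotone_nat_of_le_succ fun n => h2 _ _
  have m2 : Monotone fun n => (s n).2 := monotone_nat_of_le_succ fun n => subset_insert _ _
  have := james hX (fun n => f (s n).1) (fun n => pq (s n).1 (s (n + 1)).2 - w)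
    (fun n => hf1 _) (fun n => hQ _ _ (h1 _ _)) (a := δ / 4) (b := δ / 2) (fun m => ?_) fun k => ?_
  · linarith
  · filter_upwards [hyper_le (eventually_ge_atTop m)] with k hk
    refine (le_abs_self _).trans (h3 _ _ _ (m2 (Nat.succ_le_succ hk) ?_))
    exact mem_insert_self _ _
  · filter_upwards [hyper_le (eventually_ge_atTop (k + 1))] with m hm
    exact hf2 _ _ (m1 hm (h1 _ _))

theorem hull_weights (q : ℕ → X) (a b : ℕ) {z : X} (hz : z ∈ convexHull ℝ (q '' Set.Ico a b)) :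
    ∃ l : ℕ → ℝ, (∀ r, 0 ≤ l r) ∧ ∑ r ∈ range b, l r = 1 ∧ (∀ r, l r ≠ 0 → a ≤ r ∧ r < b) ∧
      z = ∑ r ∈ range b, l r • q r := by
  refine convexHull_min (t := {z | ∃ l : ℕ → ℝ, (∀ r, 0 ≤ l r) ∧ ∑ r ∈ range b, l r = 1 ∧
    (∀ r, l r ≠ 0 → a ≤ r ∧ r < b) ∧ z = ∑ r ∈ range b, l r • q r}) ?_ ?_ hz
  · rintro _ ⟨r, hr, rfl⟩
    refine ⟨fun i => if i = r then 1 else 0, fun i => by positivity, by simp [hr.2],
      fun i hi => ?_, by simp [hr.2]⟩
    have : i = r := by simpa using hi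
    exact this ▸ hr
  · rintro _ ⟨l, h1, h2, h3, rfl⟩ _ ⟨l', h1', h2', h3', rfl⟩ s t hs ht hst
    refine ⟨fun i => s * l i + t * l' i, fun i => add_nonneg (mul_nonneg hs (h1 i))
      (mul_nonneg ht (h1' i)), ?_, fun i hi => ?_, ?_⟩
    · rw [sum_add_distrib, ← mul_sum, ← mul_sum, h2, h2']
      simpa using hst
    · by_contra hc
      have e1 : l i = 0 := by_contra fun h => hc (h3 i h)
      have e2 : l' i = 0 := by_contra fun h => hc (h3' i h)
      simp [e1, e2] at hi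
    · simp only [smul_sum, smul_smul, add_smul, sum_add_distrib]

variable {K : Set X} {w : X} {x : ℕ → X} {m : ℕ} {H : St X}

theorem stage (hS : Setup K w x) (hV : Valid K w x m H) (V : Finset X)
    (hVZ : ∀ v ∈ V, v ∈ ZZ K w) :
    ∃ H' : St X, Valid K w x (m + 1) H' ∧ H.R ≤ H'.R ∧ (∀ r < H'.R, H'.st r ≤ m) ∧
      (∀ r < H.R, H'.st r = H.st r ∧ H'.e r = H.e r) ∧
      ∀ r, H.R ≤ r → r < H'.R → H'.st r = m ∧ ∀ v ∈ V, |H'.e r v| ≤ 1 / 4 := by
  let A := {G : St X // Valid K w x m G ∧ H.R ≤ G.R ∧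
    (∀ r < H.R, G.st r = H.st r ∧ G.e r = H.e r) ∧
      ∀ r, H.R ≤ r → r < G.R → G.st r = m ∧ ∀ v ∈ V, |G.e r v| ≤ 1 / 4}
  obtain ⟨⟨G, hG, g1, g2, g3⟩, z, hz, hzw⟩ := mazur_game hS.refl (A := A)
    ⟨H, hV, le_rfl, fun _ _ => ⟨rfl, rfl⟩, fun r h h' => absurd h' (not_lt.2 h)⟩
    (fun G => G.1.q '' Set.Ico H.R G.1.R) w (by
      rintro G _ ⟨r, hr, rfl⟩
      exact hS.diam _ (G.2.1.cand r hr.2).hq _ hS.hw) (by
      rintro ⟨G, hG, g1, g2, g3⟩ Φ η hη
      obtain ⟨q, e, S, k1, k2, k3⟩ := extend_one hS hG V hVZ Φ hη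
      refine ⟨⟨G.add w m q e S, k1, g1.trans (Nat.le_succ _), fun r hr => ?_,
        fun r hr hr' => ?_⟩, q, ⟨G.R, ⟨g1, Nat.lt_succ_self _⟩, by simp [St.add]⟩, ?_, k3⟩
      · have : r ≠ G.R := by omega
        simpa [St.add, this] using g2 r hr
      · rcases eq_or_ne r G.R with rfl | hne
        · simpa [St.add] using k2
        · have := g3 r hr (by
            change r < G.R + 1 at hr'
            omega)
          simpa only [St.add, update_of_ne hne] using this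
      · rintro _ ⟨r, hr, rfl⟩
        exact ⟨r, ⟨hr.1, Nat.lt_succ_of_lt hr.2⟩, by simp [St.add, hr.2.ne]⟩) (tau_pos (m + 1))
  obtain ⟨l, l1, l2, l3, rfl⟩ := hull_weights G.q H.R G.R hz
  obtain ⟨r0, -, hr0⟩ := exists_ne_zero_of_sum_ne_zero (l2.trans_ne one_ne_zero)
  let G' : St X := { G with
    lam := update G.lam m l
    Sb := update G.Sb m fun z => ∑ r ∈ range G.R, l r • G.S r z }
  refine ⟨G', ⟨?_, fun r hr => ?_, fun j hj => ?_⟩, g1, fun r hr => (hG.cand r hr).st2, g2, g3⟩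
  · have := l3 r0 hr0
    have := hV.le
    change m + 1 ≤ G.R
    omega
  · have hc := hG.cand r hr
    have hSb : ∀ j < G.st r, G'.Sb j = G.Sb j := fun j hj =>
      update_of_ne (hj.trans_le hc.st2).ne _ _
    refine ⟨hc.st1, hc.st2.trans (Nat.le_succ _), hc.hq, hc.hS, hc.hSw, hc.hY, hc.hY0,
      fun j hj p => ?_, fun j hj => ?_, hc.he, hc.tight⟩
    · rw [Yeq_congr (H := G') (H' := G) (r := r) (j := j) (hSb j hj) fun _ _ => ⟨rfl, rfl, rfl⟩]
      exact hc.hY1 j hj p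
    · rw [hSb j hj]
      exact hc.fix j hj
  · rcases eq_or_ne j m with rfl | hne
    · refine ⟨?_, ?_, fun r hr => ?_, ?_, ?_⟩
      · simpa [G'] using l1
      · simpa [G'] using l2
      · have := l3 r (by simpa [G'] using hr)
        exact ⟨this.2, (g3 r this.1 this.2).1⟩
      · simp [G']
      · simpa [G'] using hzw
    · have hL := hG.lev j (by omega)
      refine ⟨?_, ?_, ?_, ?_, ?_⟩
      · simpa [G', hne] using hL.nonneg
      · simpa [G', hne] using hL.sum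
      · simpa only [G', update_of_ne hne] using hL.supp
      · simpa [G', hne] using hL.hSb
      · simpa [G', hne] using hL.near

end Vale.Agent.P079
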