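import Vale.Agent.P079.Cube

namespace Vale.Agent.P079

open Filter Topology Finset Function

noncomputable def tau : ℕ → ℝ
  | 0 => 1
  | r + 1 => tau r ^ (r + 1) / (100 * (r + 1) * 2 ^ r)

theorem tau_pos (r : ℕ) : 0 < tau r := by
  induction r with
  | zero => exact one_pos
  | succ r ih =>
    unfold tau
    positivity

theorem den_ge (r : ℕ) : (100 : ℝ) ≤ 100 * (r + 1) * 2 ^ r := by
  have h1 : (1 : ℝ) ≤ 2 ^ r := one_le_pow₀ (by norm_num)
  have h2 : (0 : ℝ) ≤ r := Nat.cast_nonneg r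
  nlinarith

theorem tau_le_one (r : ℕ) : tau r ≤ 1 := by
  induction r with
  | zero => exact le_rfl
  | succ r ih =>
    unfold tau
    exact div_le_one_of_le₀ ((pow_le_one₀ (tau_pos r).le ih).trans (by linarith [den_ge r]))
      (by positivity)

theorem tau_key {j r : ℕ} (h : j ≤ r + 1) : tau (r + 1) * (100 * (r + 1) * 2 ^ r) ≤ tau r ^ j := by
  have : tau (r + 1) * (100 * (r + 1) * 2 ^ r) = tau r ^ (r + 1) := by
    rw [tau]
    field_simp
  rw [this]
  exact pow_le_pow_of_le_one (tau_pos r).le (tau_le_one r) h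

theorem tau_succ_le (r : ℕ) : 100 * tau (r + 1) ≤ tau r := by
  have h1 := tau_key (j := 1) (r := r) (by omega)
  have h2 := mul_le_mul_of_nonneg_left (den_ge r) (tau_pos (r + 1)).le
  rw [pow_one] at h1
  linarith

theorem tau_anti {r s : ℕ} (h : r ≤ s) : tau s ≤ tau r :=
  antitone_nat_of_succ_le (fun n => by linarith [tau_succ_le n, tau_pos (n + 1)]) h

theorem tau_sum (a b : ℕ) : ∑ i ∈ Ico a b, tau i ≤ 2 * tau a := by
  have h : ∀ b, a ≤ b → ∑ i ∈ Ico a b, tau i ≤ 2 * tau a - 2 * tau b := by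
    intro b hb
    induction b, hb using Nat.le_induction with
    | base => simp
    | succ b hb ih =>
      rw [sum_Ico_succ_top hb]
      linarith [tau_succ_le b, tau_pos (b + 1)]
  rcases le_total a b with hab | hab
  · linarith [h b hab, tau_pos b]
  · rw [Ico_eq_empty_of_le hab, sum_empty]
    linarith [tau_pos a]

variable {X : Type*} [NormedAddCommGroup X] [NormedSpace ℝ X]

def Fx (K : Set X) (x : ℕ → X) (S : X → X) : Prop :=
  NE K S ∧ Tendsto (fun n => ‖S (x n) - x n‖) (hyperfilter ℕ) (𝓝 0)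

structure Setup (K : Set X) (w : X) (x : ℕ → X) : Prop extends Base K w where
  hx : ∀ n, x n ∈ K
  hxw : WL (hyperfilter ℕ : Filter ℕ) x w
  far : ∀ y ∈ K, Tendsto (fun n => ‖x n - y‖) (hyperfilter ℕ) (𝓝 1)
  maps : ∀ q ∈ K, ∀ η > 0, ∃ S, Fx K x S ∧ ‖S w - q‖ ≤ η

variable (X) in
structure St where
  R : ℕ
  st : ℕ → ℕ
  q : ℕ → X
  e : ℕ → StrongDual ℝ X
  S : ℕ → X → X
  Y : ℕ → ℕ → X → X
  lam : ℕ → ℕ → ℝ
  Sb : ℕ → X → X

noncomputable def wtA (H : St X) (j : ℕ) : ℕ → ℝ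
  | 0 => 1 - 3 * tau (j + 1)
  | r + 1 => if j < H.st r then tau r else 0

def loA (w : X) (H : St X) (j : ℕ) (p : X) : ℕ → X
  | 0 => w
  | r + 1 => H.Y r (j + 1) p

def upA (H : St X) (p : X) : ℕ → X
  | 0 => p
  | r + 1 => H.q r

noncomputable def Yeq (w : X) (H : St X) (r j : ℕ) (p y : X) : X :=
  AV (r + 1) fun σ => H.Sb j (pt w (r + 1) (wtA H j) (loA w H j p) (upA H p) σ + tau r • (y - w))

structure Cand (K : Set X) (w : X) (x : ℕ → X) (m : ℕ) (H : St X) (r : ℕ) : Prop where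
  st1 : H.st r ≤ r
  st2 : H.st r ≤ m
  hq : H.q r ∈ K
  hS : Fx K x (H.S r)
  hSw : ‖H.S r w - H.q r‖ ≤ tau (r + 1)
  hY : ∀ j, ∀ p ∈ K, H.Y r j p ∈ K
  hY0 : ∀ p, H.Y r (H.st r) p = p
  hY1 : ∀ j < H.st r, ∀ p, H.Y r j p = Yeq w H r j p (H.Y r (j + 1) p)
  fix : ∀ j < H.st r, ‖H.Sb j (H.q r) - H.q r‖ ≤ tau (r + 1)
  he : ‖H.e r‖ ≤ 1
  tight : ∀ᶠ n in (hyperfilter ℕ : Filter ℕ), 1 - tau (r + 1) ≤ H.e r (H.q r - H.Y r 0 (x n))

structure Lev (w : X) (H : St X) (j : ℕ) : Prop where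
  nonneg : ∀ r, 0 ≤ H.lam j r
  sum : ∑ r ∈ range H.R, H.lam j r = 1
  supp : ∀ r, H.lam j r ≠ 0 → r < H.R ∧ H.st r = j
  hSb : ∀ z, H.Sb j z = ∑ r ∈ range H.R, H.lam j r • H.S r z
  near : ‖∑ r ∈ range H.R, H.lam j r • H.q r - w‖ ≤ tau (j + 1)

structure Valid (K : Set X) (w : X) (x : ℕ → X) (m : ℕ) (H : St X) : Prop where
  le : m ≤ H.R
  cand : ∀ r < H.R, Cand K w x m H r
  lev : ∀ j < m, Lev w H j

variable {K : Set X} {w : X} {x : ℕ → X} {m : ℕ} {H : St X}

theorem Yeq_congr {H' : St X} {r j : ℕ} (hSb : H.Sb j = H'.Sb j)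
    (h : ∀ r' < r, H.st r' = H'.st r' ∧ H.Y r' = H'.Y r' ∧ H.q r' = H'.q r') (p y : X) :
    Yeq w H r j p y = Yeq w H' r j p y := by
  unfold Yeq
  congr 1
  funext σ
  rw [hSb]
  congr 2
  refine pt_congr fun i hi => ?_
  rcases i with _ | i
  · exact ⟨rfl, rfl, rfl, rfl⟩
  · obtain ⟨h1, h2, h3⟩ := h i (by omega)
    simp only [wtA, loA, upA, h1, h2, h3, and_self]

theorem Valid.fx (hB : Base K w) (hV : Valid K w x m H) {j : ℕ} (hj : j < m) : Fx K x (H.Sb j) := by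
  have hL := hV.lev j hj
  have hS := fun r (hr : r ∈ range H.R) => (hV.cand r (mem_range.1 hr)).hS
  have key : ∀ (v : ℕ → X) (c : ℕ → ℝ), (∀ r ∈ range H.R, ‖v r‖ ≤ c r) →
      ‖∑ r ∈ range H.R, H.lam j r • v r‖ ≤ ∑ r ∈ range H.R, H.lam j r * c r := fun v c h =>
    (norm_sum_le _ _).trans (sum_le_sum fun r hr => by
      rw [norm_smul_of_nonneg (hL.nonneg r)]
      exact mul_le_mul_of_nonneg_left (h r hr) (hL.nonneg r))
  refine ⟨⟨fun a ha => ?_, fun a ha b hb => ?_⟩, ?_⟩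
  · rw [hL.hSb]
    exact hB.conv.sum_mem (fun r _ => hL.nonneg r) hL.sum fun r hr => (hS r hr).1.1 a ha
  · rw [hL.hSb, hL.hSb, ← sum_sub_distrib]
    simp only [← smul_sub]
    refine (key _ _ fun r hr => (hS r hr).1.2 a ha b hb).trans ?_
    rw [← sum_mul, hL.sum, one_mul]
  · have h1 : Tendsto (fun n => ∑ r ∈ range H.R, H.lam j r * ‖H.S r (x n) - x n‖)
        (hyperfilter ℕ) (𝓝 (∑ r ∈ range H.R, H.lam j r * 0)) :=
      tendsto_finsetSum _ fun r hr => (hS r hr).2.const_mul _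
    simp only [mul_zero, sum_const_zero] at h1
    refine squeeze_zero (fun _ => norm_nonneg _) (fun n => ?_) h1
    have e : H.Sb j (x n) - x n = ∑ r ∈ range H.R, H.lam j r • (H.S r (x n) - x n) := by
      simp only [smul_sub, sum_sub_distrib, ← sum_smul, hL.sum, one_smul, hL.hSb]
    rw [e]
    exact key _ _ fun r _ => le_rfl

theorem wtA_nonneg (j i : ℕ) : 0 ≤ wtA H j i := by
  rcases i with _ | i
  · have h1 := tau_succ_le j
    have h2 := tau_le_one j
    simp only [wtA]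
    linarith [tau_pos (j + 1)]
  · simp only [wtA]
    split_ifs
    · exact (tau_pos i).le
    · exact le_rfl

theorem wtA_le (j r : ℕ) : wtA H j (r + 1) ≤ tau r := by
  simp only [wtA]
  split_ifs
  · exact le_rfl
  · exact (tau_pos r).le

theorem Valid.wsum (hV : Valid K w x m H) (j : ℕ) :
    ∑ i ∈ range (H.R + 1), wtA H j i ≤ 1 - tau (j + 1) := by
  rw [sum_range_succ']
  have h1 : ∑ r ∈ range H.R, wtA H j (r + 1) ≤ ∑ r ∈ Ico (j + 1) H.R, tau r := by
    have e : Ico (j + 1) H.R = (range H.R).filter fun r => j + 1 ≤ r := by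
      ext r
      simp only [mem_Ico, mem_filter, mem_range]
      omega
    rw [e, sum_filter]
    refine sum_le_sum fun r hr => ?_
    have := (hV.cand r (mem_range.1 hr)).st1
    simp only [wtA]
    split_ifs
    · exact le_rfl
    · omega
    · exact (tau_pos r).le
    · exact le_rfl
  have h2 := tau_sum (j + 1) H.R
  simp only [wtA] at h1 ⊢
  linarith

theorem Valid.arr (hB : Base K w) (hV : Valid K w x m H) (j : ℕ) {p : X} (hp : p ∈ K) :
    ∀ i < H.R + 1, 0 ≤ wtA H j i ∧ loA w H j p i ∈ K ∧ upA H p i ∈ K := by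
  intro i hi
  refine ⟨wtA_nonneg j i, ?_⟩
  rcases i with _ | i
  · exact ⟨hB.hw, hp⟩
  · have := hV.cand i (by omega)
    exact ⟨this.hY _ p hp, this.hq⟩

theorem Valid.Yeq_mem (hB : Base K w) (hV : Valid K w x m H) {j : ℕ} (hj : j < m) {p y : X}
    (hp : p ∈ K) (hy : y ∈ K) : Yeq w H H.R j p y ∈ K := by
  have key : ∀ σ, InCube σ → H.Sb j (pt w (H.R + 1) (wtA H j) (loA w H j p) (upA H p) σ
      + tau H.R • (y - w)) ∈ K := by
    intro σ hσ
    refine (hV.fx hB hj).1.1 _ ?_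
    have hA : Arr K (H.R + 1 + 1) (update (wtA H j) (H.R + 1) (tau H.R))
        (update (loA w H j p) (H.R + 1) y) (update (upA H p) (H.R + 1) y) := by
      refine ⟨fun i hi => ?_, ?_⟩
      · rcases eq_or_ne i (H.R + 1) with rfl | h
        · simpa using ⟨(tau_pos _).le, hy⟩
        · simpa [h] using hV.arr hB j hp i (by omega)
      · rw [sum_range_succ, update_self, sum_congr rfl fun i hi =>
          update_of_ne (mem_range.1 hi).ne _ _]
        have := tau_anti (r := j + 1) (s := H.R) (hj.trans_le hV.le)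
        linarith [hV.wsum j]
    have h1 := pt_mem hB hA fun i _ => hσ.update (H.R + 1) le_rfl zero_le_one i
    rw [pt_low, update_self, update_self, pt_congr (wt' := wtA H j) (lo' := loA w H j p)
      (up' := upA H p) (σ' := σ) fun i hi => by simp [hi.ne]] at h1
    exact h1
  exact AV_mem hB.refl hB.conv hB.cl _ (bd_of_mem hB key) key

end Vale.Agent.P079
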