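import Mathlib

namespace Vale.Agent.P079

open Filter Topology

variable {X : Type*} [NormedAddCommGroup X] [NormedSpace ℝ X]

theorem exists_wstar {ι : Type*} (U : Ultrafilter ι) (f : ι → StrongDual ℝ X) (C : ℝ)
    (hf : ∀ i, ‖f i‖ ≤ C) :
    ∃ ξ : StrongDual ℝ X, ∀ y, Tendsto (fun i => f i y) U (𝓝 (ξ y)) := by
  have hc := WeakDual.isCompact_closedBall (𝕜 := ℝ) (0 : StrongDual ℝ X) C
  let g : ι → WeakDual ℝ X := fun i => StrongDual.toWeakDual (f i)
  obtain ⟨ξ, -, hξ⟩ := hc.ultrafilter_le_nhds (U.map g) (by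
    rw [Ultrafilter.coe_map, le_principal_iff, mem_map]
    exact Eventually.of_forall fun i => by simpa [g] using hf i)
  refine ⟨WeakDual.toStrongDual ξ, fun y => ?_⟩
  exact ((WeakDual.eval_continuous y).tendsto ξ).comp hξ

def WL {ι : Type*} (U : Filter ι) (a : ι → X) (v : X) : Prop :=
  ∀ φ : StrongDual ℝ X, Tendsto (fun i => φ (a i)) U (𝓝 (φ v))

variable (X) in
def Refl : Prop := Function.Surjective (NormedSpace.inclusionInDoubleDual ℝ X)

theorem exists_WL (hX : Refl X) {ι : Type*} (U : Ultrafilter ι) (a : ι → X) (C : ℝ)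
    (ha : ∀ i, ‖a i‖ ≤ C) : ∃ v, WL U a v := by
  obtain ⟨ξ, hξ⟩ := exists_wstar U (fun i => NormedSpace.inclusionInDoubleDual ℝ X (a i)) C
    fun i => (NormedSpace.double_dual_bound ℝ X (a i)).trans (ha i)
  obtain ⟨v, rfl⟩ := hX ξ
  exact ⟨v, fun φ => hξ φ⟩

variable {ι : Type*} {U : Filter ι}

theorem WL.mem [U.NeBot] {a : ι → X} {v : X} (h : WL U a v) {C : Set X} (hC : Convex ℝ C)
    (hcl : IsClosed C) (ha : ∀ᶠ i in U, a i ∈ C) : v ∈ C := by
  by_contra hv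
  obtain ⟨f, u, h1, h2⟩ := geometric_hahn_banach_point_closed hC hcl hv
  have := ge_of_tendsto (h f) (ha.mono fun i hi => (h2 _ hi).le)
  linarith

theorem WL.norm_le [U.NeBot] {a : ι → X} {v : X} (h : WL U a v) {ρ : ℝ}
    (ha : ∀ ε > 0, ∀ᶠ i in U, ‖a i‖ ≤ ρ + ε) : ‖v‖ ≤ ρ := by
  refine le_of_forall_pos_le_add fun ε hε => ?_
  have := h.mem (convex_closedBall 0 (ρ + ε)) Metric.isClosed_closedBall
    ((ha ε hε).mono fun i hi => by simpa using hi)
  simpa using this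

theorem WL.const (v : X) : WL U (fun _ => v) v := fun _ => tendsto_const_nhds

theorem WL.sub {a b : ι → X} {v w : X} (h : WL U a v) (h' : WL U b w) :
    WL U (fun i => a i - b i) (v - w) := fun φ => by
  simpa only [map_sub] using (h φ).sub (h' φ)

theorem WL.smul {a : ι → X} {v : X} (h : WL U a v) (c : ℝ) :
    WL U (fun i => c • a i) (c • v) := fun φ => by
  simpa only [map_smul, smul_eq_mul] using (h φ).const_mul c

theorem WL.sum {κ : Type*} (s : Finset κ) {a : κ → ι → X} {v : κ → X}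
    (h : ∀ k ∈ s, WL U (a k) (v k)) : WL U (fun i => ∑ k ∈ s, a k i) (∑ k ∈ s, v k) := fun φ => by
  simpa only [map_sum] using tendsto_finsetSum s fun k hk => h k hk φ

theorem WL.unique [U.NeBot] {a : ι → X} {v w : X} (h : WL U a v) (h' : WL U a w) : v = w := by
  have := (h.sub h').norm_le (ρ := 0) fun ε hε => Eventually.of_forall fun i => by simpa using hε.le
  exact sub_eq_zero.1 (norm_le_zero_iff.1 this)

noncomputable def wl (a : ℕ → X) : X := Classical.epsilon fun v => WL (hyperfilter ℕ : Filter ℕ) a v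

theorem wl_spec (hX : Refl X) {a : ℕ → X} {C : ℝ} (ha : ∀ i, ‖a i‖ ≤ C) :
    WL (hyperfilter ℕ : Filter ℕ) a (wl a) :=
  Classical.epsilon_spec (exists_WL hX (hyperfilter ℕ) a C ha)

theorem hyper_le : (hyperfilter ℕ : Filter ℕ) ≤ atTop := Nat.hyperfilter_le_atTop

/-- James' double limit argument. -/
theorem james (hX : Refl X) (f : ℕ → StrongDual ℝ X) (v : ℕ → X) {C C' a b : ℝ}
    (hf : ∀ n, ‖f n‖ ≤ C) (hv : ∀ n, ‖v n‖ ≤ C')
    (h1 : ∀ m, ∀ᶠ k in (hyperfilter ℕ : Filter ℕ), f m (v k) ≤ a)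
    (h2 : ∀ k, ∀ᶠ m in (hyperfilter ℕ : Filter ℕ), b ≤ f m (v k)) : b ≤ a := by
  obtain ⟨ξ, hξ⟩ := exists_wstar (hyperfilter ℕ) f C hf
  obtain ⟨u, hu⟩ := exists_WL hX (hyperfilter ℕ) v C' hv
  have k1 : ∀ m, f m u ≤ a := fun m => le_of_tendsto (hu (f m)) (h1 m)
  have k2 : ∀ k, b ≤ ξ (v k) := fun k => ge_of_tendsto (hξ (v k)) (h2 k)
  exact (ge_of_tendsto' (hu ξ) k2).trans (le_of_tendsto' (hξ u) k1)

end Vale.Agent.P079
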